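import Vale.Agent.P170.Var

/-! Clauses made of independent literals, the backbone estimate and the window bound. -/

open Finset
open scoped BigOperators

namespace Vale.Agent.P170

variable {Ω : Type*}

lemma pr_mono_family {Γ : Type*} [Fintype Γ] {C D : Γ → Set Ω} (h : ∀ γ, C γ ⊆ D γ) (t : ℕ)
    (S : Set Ω) : pr C t S ≤ pr D t S := by
  induction t generalizing S with
  | zero => rw [pr_zero, pr_zero]
  | succ t ih =>
    rw [pr_succ, pr_succ]
    exact expect_le_expect fun γ _ =>
      (ih _).trans (pr_mono D t (Set.inter_subset_inter_right _ (h γ)))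

lemma telescope {Γ : Type*} [Fintype Γ] [Nonempty Γ] (C D : Γ → Set Ω) (a b : ℝ) (ha : 0 ≤ a)
    (hb : 0 ≤ b) (h : ∀ S, pr D 1 S - pr C 1 S ≤ a + b * (phi S - pr D 1 S)) (M j : ℕ)
    (hj : j ≤ M) (S : Set Ω) :
    ∑ t ∈ range j, (pr D t S - pr C t S) ≤ j * (M * a + b) := by
  have key : ∀ t S, pr D (t + 1) S - pr C (t + 1) S ≤
      a + b * (pr D t S - pr D (t + 1) S) + K C (fun U => pr D t U - pr C t U) S := by
    intro t S
    have hc : K C ((K D ^ t) phi) = (K D ^ t) (K C phi) := by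
      have := ((K_commute C D).pow_right t).eq
      exact congrArg (fun A : Module.End ℝ (Set Ω → ℝ) => A phi) this
    have e1 : K C (fun U => pr D t U - pr C t U) S =
        (K D ^ t) (K C phi) S - pr C (t + 1) S := by
      rw [← hc, pr_succ]
      simp only [K_apply, expect_sub_distrib]
      rfl
    have e2 : pr D (t + 1) S = (K D ^ t) (K D phi) S := by
      rw [pr, pow_succ, Module.End.mul_apply]
    have e3 : (K D ^ t) (K D phi - K C phi) S ≤
        (K D ^ t) ((fun _ => a) + b • (phi - K D phi)) S := by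
      refine (K_pos D).pow t _ _ (fun U => ?_) S
      have := h U
      simpa [pr] using this
    rw [map_sub, map_add, map_smul, map_sub, K_pow_const] at e3
    simp only [Pi.sub_apply, Pi.add_apply, Pi.smul_apply, smul_eq_mul] at e3
    rw [e1, e2]
    have e4 : pr D t S = (K D ^ t) phi S := rfl
    rw [e4]
    linarith
  induction j generalizing S with
  | zero => simp
  | succ j ih =>
    have ih' := ih (by omega)
    rw [sum_range_succ', pr_zero, pr_zero, sub_self, add_zero]
    refine (sum_le_sum fun t _ => key t S).trans ?_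
    rw [sum_add_distrib, sum_add_distrib, ← mul_sum, sum_range_sub' (fun t => pr D t S)]
    have e1 : ∑ t ∈ range j, K C (fun U => pr D t U - pr C t U) S ≤ j * (M * a + b) := by
      simp only [K_apply]
      rw [← expect_sum_comm]
      exact expect_le univ_nonempty fun γ _ => ih' _
    have e2 : pr D 0 S - pr D j S ≤ 1 := by
      linarith [pr_le_one D 0 S, pr_nonneg D j S]
    have e3 : (j : ℝ) * a ≤ M * a :=
      mul_le_mul_of_nonneg_right (by exact_mod_cast (by omega : j ≤ M)) ha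
    simp only [sum_const, card_range, nsmul_eq_mul]
    push_cast
    nlinarith [mul_le_mul_of_nonneg_left e2 hb]

/-- The solution set of a clause made of `k` literals. -/
def cl {Λ : Type*} (k : ℕ) (lam : Λ → Set Ω) (c : Fin k → Λ) : Set Ω := ⋃ i, lam (c i)

/-- The probability that a random literal is false on all of `S`. -/
noncomputable def xx {Λ : Type*} [Fintype Λ] (lam : Λ → Set Ω) (S : Set Ω) : ℝ :=
  𝔼 l, (1 - phi (S ∩ lam l))

section lits

variable {Λ : Type*} [Fintype Λ] (lam : Λ → Set Ω)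

lemma xx_nonneg (S : Set Ω) : 0 ≤ xx lam S :=
  expect_nonneg fun _ _ => sub_nonneg.2 (phi_le_one _)

lemma xx_le_one [Nonempty Λ] (S : Set Ω) : xx lam S ≤ 1 :=
  expect_le univ_nonempty fun l _ => by linarith [phi_nonneg (S ∩ lam l)]

omit [Fintype Λ] in
lemma phi_inter_cl (k : ℕ) (c : Fin k → Λ) (S : Set Ω) :
    phi (S ∩ cl k lam c) = 1 - ∏ i, (1 - phi (S ∩ lam (c i))) := by
  rcases (S ∩ cl k lam c).eq_empty_or_nonempty with h | h
  · rw [h, phi_empty, prod_eq_one, sub_self]
    intro i _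
    have : S ∩ lam (c i) = ∅ :=
      Set.subset_eq_empty (Set.inter_subset_inter_right _ (Set.subset_iUnion (fun i => lam (c i)) i)) h
    rw [this, phi_empty, sub_zero]
  · rw [phi_of_nonempty h]
    obtain ⟨σ, hS, hσ⟩ := h
    obtain ⟨i, hi⟩ := Set.mem_iUnion.1 hσ
    rw [prod_eq_zero (mem_univ i), sub_zero]
    rw [phi_of_nonempty (S := S ∩ lam (c i)) ⟨σ, hS, hi⟩, sub_self]

lemma pr_one_cl [Nonempty Λ] (k : ℕ) (S : Set Ω) : pr (cl k lam) 1 S = 1 - xx lam S ^ k := by
  classical
  rw [pr_succ, xx, expect_pow, Fintype.piFinset_univ]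
  simp only [pr_zero, phi_inter_cl, expect_sub_distrib, Fintype.expect_const]

lemma uu_cl_le [Nonempty Λ] (k : ℕ) (hk : 1 ≤ k) (M : ℕ) (R : ℝ) (hR : 0 ≤ R)
    (hM : (M : ℝ) ≤ R ^ k) (S : Set Ω) :
    uu (cl k lam) M S ≤ R * 𝔼 l, psi (lam l) S := by
  rcases S.eq_empty_or_nonempty with rfl | hS
  · simp [uu, gg_empty, psi]
  · have e1 : 𝔼 l, psi (lam l) S = xx lam S := by
      simp only [psi, xx, phi_of_nonempty hS]
    rw [e1]
    have h0 := xx_nonneg lam S
    rcases le_total 1 (R * xx lam S) with h | h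
    · exact (uu_le_one _ M S).trans h
    · refine (uu_le_mul _ M S).trans ?_
      rw [pr_one_cl, phi_of_nonempty hS]
      calc (1 - (1 - xx lam S ^ k)) * M = M * xx lam S ^ k := by ring
        _ ≤ R ^ k * xx lam S ^ k := mul_le_mul_of_nonneg_right hM (pow_nonneg h0 k)
        _ = (R * xx lam S) ^ k := (mul_pow _ _ _).symm
        _ ≤ R * xx lam S := pow_le_of_le_one (mul_nonneg hR h0) h (by omega)

end lits

lemma pow_add_sub_le (z d : ℝ) (hz : 0 ≤ z) (hd : 0 ≤ d) (k : ℕ) :
    (z + d) ^ (k + 1) - z ^ (k + 1) ≤ (k + 1) * d * (z + d) ^ k := by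
  induction k with
  | zero => simp
  | succ k ih =>
    have h1 : z ^ (k + 1) ≤ (z + d) ^ (k + 1) := pow_le_pow_left₀ hz (by linarith) _
    have h2 : 0 ≤ z + d := by linarith
    calc (z + d) ^ (k + 1 + 1) - z ^ (k + 1 + 1)
        = (z + d) * ((z + d) ^ (k + 1) - z ^ (k + 1)) + d * z ^ (k + 1) := by ring
      _ ≤ (z + d) * ((k + 1) * d * (z + d) ^ k) + d * (z + d) ^ (k + 1) :=
        add_le_add (mul_le_mul_of_nonneg_left ih h2) (mul_le_mul_of_nonneg_left h1 hd)
      _ = _ := by push_cast; ring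

lemma pow_add_le (z d R : ℝ) (hz : 0 ≤ z) (hd : 0 ≤ d) (hR : 0 < R) (hdR : d ≤ 1 / R) (k : ℕ) :
    (z + d) ^ k ≤ 2 ^ k * ((1 / R) ^ k + R * z ^ (k + 1)) := by
  have h0 : 0 ≤ R * z ^ (k + 1) := by positivity
  have h0' : 0 ≤ (1 / R) ^ k := by positivity
  rcases le_total z (1 / R) with h | h
  · calc (z + d) ^ k ≤ (2 * (1 / R)) ^ k := pow_le_pow_left₀ (by linarith) (by linarith) _
      _ = 2 ^ k * (1 / R) ^ k := mul_pow _ _ _
      _ ≤ _ := mul_le_mul_of_nonneg_left (by linarith) (by positivity)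
  · have h1 : 1 ≤ R * z := by
      rw [div_le_iff₀ hR] at h; linarith
    calc (z + d) ^ k ≤ (2 * z) ^ k := pow_le_pow_left₀ (by linarith) (by linarith) _
      _ = 2 ^ k * z ^ k := mul_pow _ _ _
      _ ≤ 2 ^ k * (R * z ^ (k + 1)) := by
        refine mul_le_mul_of_nonneg_left ?_ (by positivity)
        calc z ^ k = 1 * z ^ k := (one_mul _).symm
          _ ≤ (R * z) * z ^ k := mul_le_mul_of_nonneg_right h1 (by positivity)
          _ = _ := by ring
      _ ≤ _ := mul_le_mul_of_nonneg_left (by linarith) (by positivity)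

/-- The set of assignments making a literal true. -/
def lit {V : Type*} (l : V × Bool) : Set (V → Bool) := {σ | σ l.1 = l.2}

section cube

variable {V : Type*} [Fintype V] [DecidableEq V]

/-- Literals on `v` replaced by `True`. -/
def litT (v : V) (l : V × Bool) : Set (V → Bool) := if l.1 = v then Set.univ else lit l

/-- Literals on `v` replaced by `False`. -/
def litF (v : V) (l : V × Bool) : Set (V → Bool) := if l.1 = v then ∅ else lit l

lemma xx_litF_le (v : V) (S : Set (V → Bool)) :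
    xx (litF v) S ≤ xx (litT v) S + 1 / Fintype.card V := by
  have : Nonempty V := ⟨v⟩
  have e1 : (1 : ℝ) / Fintype.card V = 𝔼 l : V × Bool, (if l.1 = v then (1 : ℝ) else 0) := by
    rw [Fintype.expect_eq_sum_div_card, Fintype.sum_prod_type_right]
    have : (Fintype.card V : ℝ) ≠ 0 := by positivity
    simp
    field_simp
  rw [e1, xx, xx, ← expect_add_distrib]
  refine expect_le_expect fun l _ => ?_
  unfold litF litT
  split_ifs
  · linarith [phi_le_one (S ∩ Set.univ), phi_nonneg (S ∩ ∅)]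
  · simp

lemma pr_litF_inter (k : ℕ) (l : V × Bool) (t : ℕ) (S : Set (V → Bool))
    (hS : ∀ σ ∈ S, Function.update σ l.1 l.2 ∈ S) :
    pr (cl k (litF l.1)) t (S ∩ lit l) = pr (cl k (litF l.1)) t S := by
  induction t generalizing S with
  | zero =>
    rw [pr_zero, pr_zero]
    rcases S.eq_empty_or_nonempty with rfl | ⟨σ, hσ⟩
    · simp
    · rw [phi_of_nonempty (S := S) ⟨σ, hσ⟩, phi_of_nonempty (S := S ∩ lit l)
        ⟨Function.update σ l.1 l.2, hS σ hσ, by simp [lit]⟩]
  | succ t ih =>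
    rw [pr_succ, pr_succ]
    refine expect_congr rfl fun c _ => ?_
    rw [Set.inter_right_comm]
    refine ih _ ?_
    rintro σ ⟨h1, h2⟩
    refine ⟨hS σ h1, ?_⟩
    obtain ⟨i, hi⟩ := Set.mem_iUnion.1 h2
    refine Set.mem_iUnion.2 ⟨i, ?_⟩
    unfold litF at hi ⊢
    split_ifs at hi ⊢ with h
    · exact hi
    · simpa [lit, Function.update_of_ne h] using hi

lemma backbone (k : ℕ) (l : V × Bool) (M : ℕ) (R : ℝ) (hR : 0 < R)
    (hRn : R ≤ Fintype.card V) (hM : (M : ℝ) ≤ R ^ (k + 1)) :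
    ∑ t ∈ range M, (pr (cl (k + 1) (lit (V := V))) t Set.univ -
      pr (cl (k + 1) lit) t (Set.univ ∩ lit l)) ≤
      M * ((k + 1) * 2 ^ (k + 1) * R / Fintype.card V) := by
  have : Nonempty V := ⟨l.1⟩
  set n : ℝ := (Fintype.card V : ℝ) with hn
  have hn0 : 0 < n := lt_of_lt_of_le hR hRn
  have h1 : ∀ t, pr (cl (k + 1) (lit (V := V))) t Set.univ -
      pr (cl (k + 1) lit) t (Set.univ ∩ lit l) ≤
      pr (cl (k + 1) (litT l.1)) t Set.univ - pr (cl (k + 1) (litF l.1)) t Set.univ := by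
    intro t
    rw [← pr_litF_inter (k + 1) l t Set.univ (fun _ _ => trivial)]
    refine sub_le_sub (pr_mono_family (fun c => ?_) t _) (pr_mono_family (fun c => ?_) t _)
    · refine Set.iUnion_mono fun i => ?_
      unfold litT; split_ifs <;> simp
    · refine Set.iUnion_mono fun i => ?_
      unfold litF; split_ifs <;> simp
  refine (sum_le_sum fun t _ => h1 t).trans ?_
  have h2 := telescope (cl (k + 1) (litF l.1)) (cl (k + 1) (litT l.1))
    ((k + 1) / n * 2 ^ k * (1 / R) ^ k) ((k + 1) / n * 2 ^ k * R) (by positivity) (by positivity)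
    (fun S => ?_) M M le_rfl Set.univ
  · refine h2.trans (mul_le_mul_of_nonneg_left ?_ (by positivity))
    have e1 : (M : ℝ) * (1 / R) ^ k ≤ R := by
      rw [one_div, inv_pow, ← div_eq_mul_inv, div_le_iff₀ (by positivity), ← pow_succ']
      exact hM
    have e2 : (0 : ℝ) ≤ (k + 1) / n * 2 ^ k := by positivity
    calc (M : ℝ) * ((k + 1) / n * 2 ^ k * (1 / R) ^ k) + (k + 1) / n * 2 ^ k * R
        = (k + 1) / n * 2 ^ k * (M * (1 / R) ^ k) + (k + 1) / n * 2 ^ k * R := by ring
      _ ≤ (k + 1) / n * 2 ^ k * R + (k + 1) / n * 2 ^ k * R :=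
        add_le_add (mul_le_mul_of_nonneg_left e1 e2) le_rfl
      _ = _ := by ring
  · rcases S.eq_empty_or_nonempty with rfl | hS
    · rw [pr_empty, pr_empty, phi_empty]
      simp only [sub_self, mul_zero, add_zero]
      positivity
    · rw [pr_one_cl, pr_one_cl, phi_of_nonempty hS]
      set z := xx (litT l.1) S with hz
      have hz0 : 0 ≤ z := xx_nonneg _ _
      have e1 : xx (litF l.1) S ^ (k + 1) ≤ (z + 1 / n) ^ (k + 1) :=
        pow_le_pow_left₀ (xx_nonneg _ _) (xx_litF_le l.1 S) _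
      have e2 := pow_add_sub_le z (1 / n) hz0 (by positivity) k
      have e3 := pow_add_le z (1 / n) R hz0 (by positivity) hR
        (one_div_le_one_div_of_le hR hRn) k
      have e4 : ((k : ℝ) + 1) * (1 / n) * (z + 1 / n) ^ k ≤
          (k + 1) * (1 / n) * (2 ^ k * ((1 / R) ^ k + R * z ^ (k + 1))) :=
        mul_le_mul_of_nonneg_left e3 (by positivity)
      calc 1 - z ^ (k + 1) - (1 - xx (litF l.1) S ^ (k + 1))
          ≤ (k + 1) * (1 / n) * (2 ^ k * ((1 / R) ^ k + R * z ^ (k + 1))) := by linarith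
        _ = _ := by ring

/-- The window bound. -/
lemma window [Nonempty V] (k : ℕ) (a b : ℕ) (hab : a ≤ b) (R : ℝ) (hR : 0 < R)
    (hRn : R ≤ Fintype.card V) (hM : (b : ℝ) + 1 ≤ R ^ (k + 1)) :
    ((b : ℝ) + 1 - a) ^ 2 * (pr (cl (k + 1) (lit (V := V))) b Set.univ *
      (1 - pr (cl (k + 1) (lit (V := V))) a Set.univ)) ≤
      (k + 1) * 2 ^ (k + 2) * (b + 1) ^ 2 * R ^ 2 / Fintype.card V := by
  have hM' : ((b + 1 : ℕ) : ℝ) ≤ R ^ (k + 1) := by push_cast; exact hM
  refine (vv_ge _ (b + 1) a b hab (by omega) Set.univ).trans ?_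
  refine (vv_le _ (b + 1) (b + 1) le_rfl Set.univ).trans ?_
  have e1 : ∀ t, (K (cl (k + 1) (lit (V := V))) ^ t) (uu (cl (k + 1) lit) (b + 1)) Set.univ ≤
      R * 𝔼 l : V × Bool,
        (pr (cl (k + 1) (lit (V := V))) t Set.univ -
          pr (cl (k + 1) lit) t (Set.univ ∩ lit l)) := by
    intro t
    have := (K_pos (cl (k + 1) (lit (V := V)))).pow t _ (R • fun S => 𝔼 l, psi (lit l) S)
      (fun S => uu_cl_le lit (k + 1) (by omega) (b + 1) R hR.le hM' S) Set.univ
    rw [map_smul, Pi.smul_apply, K_pow_expect, smul_eq_mul] at this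
    simpa only [K_pow_psi] using this
  have e2 : ∑ t ∈ range (b + 1),
      (K (cl (k + 1) (lit (V := V))) ^ t) (uu (cl (k + 1) lit) (b + 1)) Set.univ ≤
      R * (((b + 1 : ℕ) : ℝ) * ((k + 1) * 2 ^ (k + 1) * R / Fintype.card V)) := by
    refine (sum_le_sum fun t _ => e1 t).trans ?_
    rw [← mul_sum, ← expect_sum_comm]
    refine mul_le_mul_of_nonneg_left ?_ hR.le
    exact expect_le univ_nonempty fun l _ => backbone k l (b + 1) R hR hRn hM'
  refine (mul_le_mul_of_nonneg_left e2 (by positivity)).trans (le_of_eq ?_)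
  push_cast
  ring

end cube

end Vale.Agent.P170
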