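import Vale.Agent.P170.Interp

/-! First moment upper bound and Hall lower bound. -/

open Finset
open scoped BigOperators

namespace Vale.Agent.P170

lemma xx_singleton {n : ℕ} [NeZero n] (σ : Fin n → Bool) : xx lit {σ} = 1 / 2 := by
  have h : ∀ v : Fin n, ∑ b : Bool, (1 - phi (({σ} : Set (Fin n → Bool)) ∩ lit (v, b))) = 1 := by
    intro v
    have h1 : phi (({σ} : Set (Fin n → Bool)) ∩ lit (v, σ v)) = 1 :=
      phi_of_nonempty ⟨σ, rfl, rfl⟩
    have h2 : phi (({σ} : Set (Fin n → Bool)) ∩ lit (v, !σ v)) = 0 := by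
      rw [← phi_empty]
      congr 1
      ext τ
      simp only [Set.mem_inter_iff, Set.mem_singleton_iff, lit, Set.mem_ofPred_eq,
        Set.mem_empty_iff_false, iff_false, not_and]
      rintro rfl
      simp
    rw [Fintype.sum_bool]
    cases h : σ v <;> simp only [h, Bool.not_false, Bool.not_true] at h1 h2 <;> rw [h1, h2] <;>
      norm_num
  rw [xx, Fintype.expect_eq_sum_div_card, Fintype.sum_prod_type]
  have : (n : ℝ) ≠ 0 := by exact_mod_cast NeZero.ne n
  simp only [h, sum_const, card_univ, Fintype.card_fin, nsmul_eq_mul, mul_one, Fintype.card_prod,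
    Fintype.card_bool]
  push_cast
  field_simp

lemma first_moment (k n m : ℕ) [NeZero n] : pp k n m ≤ 2 ^ n * (1 - (1 / 2) ^ k) ^ m := by
  have h1 : (phi : Set (Fin n → Bool) → ℝ) ≤ ∑ σ : Fin n → Bool, fun S => phi (S ∩ {σ}) := by
    intro S
    rw [Finset.sum_apply]
    rcases S.eq_empty_or_nonempty with rfl | ⟨σ, hσ⟩
    · rw [phi_empty]; exact sum_nonneg fun _ _ => phi_nonneg _
    · refine le_trans ?_ (single_le_sum (f := fun σ => phi (S ∩ {σ}))
        (fun _ _ => phi_nonneg _) (mem_univ σ))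
      rw [phi_of_nonempty (S := S ∩ {σ}) ⟨σ, hσ, rfl⟩]
      exact phi_le_one _
  have h2 := (K_pos (cl k (lit (V := Fin n)))).pow m _ _ h1 Set.univ
  rw [map_sum, Finset.sum_apply] at h2
  refine h2.trans ?_
  have h3 : ∀ σ : Fin n → Bool, (K (cl k (lit (V := Fin n))) ^ m) (fun S => phi (S ∩ {σ}))
      Set.univ ≤ (1 - (1 / 2) ^ k) ^ m := by
    intro σ
    rw [K_pow_inter, Set.univ_inter]
    have := pr_le_pow (cl k (lit (V := Fin n))) m {σ}
    rwa [pr_one_cl, xx_singleton] at this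
  refine (sum_le_sum fun σ _ => h3 σ).trans (le_of_eq ?_)
  simp

lemma expect_prod_pi {ι Γ : Type*} [Fintype ι] [DecidableEq ι] [Fintype Γ] (f : ι → Γ → ℝ) :
    𝔼 F : ι → Γ, ∏ j, f j (F j) = ∏ j, 𝔼 γ, f j γ := by
  simp only [Fintype.expect_eq_sum_div_card, prod_div_distrib, prod_univ_sum,
    Fintype.piFinset_univ, prod_const, card_univ, Fintype.card_fun]
  push_cast
  rfl

lemma expect_mem {n : ℕ} [NeZero n] (W : Finset (Fin n)) :
    𝔼 l : Fin n × Bool, (if l.1 ∈ W then (1 : ℝ) else 0) = W.card / n := by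
  rw [Fintype.expect_eq_sum_div_card, Fintype.sum_prod_type_right]
  have : (n : ℝ) ≠ 0 := by exact_mod_cast NeZero.ne n
  simp
  field_simp

lemma hall_cover {k n m : ℕ} (hmn : m ≤ n) (F : Fin m → Fin k → Fin n × Bool) :
    1 - phi (Set.univ ∩ ⋂ j, cl k lit (F j)) ≤
      ∑ i ∈ range m, ∑ J ∈ powersetCard (i + 1) (univ : Finset (Fin m)),
        ∑ W ∈ powersetCard (i + 1) (univ : Finset (Fin n)),
          ∏ j, (if j ∈ J then ∏ a, (if (F j a).1 ∈ W then (1 : ℝ) else 0) else 1) := by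
  have hnn : ∀ (J : Finset (Fin m)) (W : Finset (Fin n)),
      0 ≤ ∏ j, (if j ∈ J then ∏ a, (if (F j a).1 ∈ W then (1 : ℝ) else 0) else 1) := by
    intro J W
    refine prod_nonneg fun j _ => ?_
    split_ifs
    · exact prod_nonneg fun a _ => by split_ifs <;> norm_num
    · norm_num
  by_cases hH : ∀ s : Finset (Fin m),
      s.card ≤ (s.biUnion fun j => univ.image fun a => (F j a).1).card
  · obtain ⟨f, hf, hf'⟩ := (all_card_le_biUnion_card_iff_exists_injective _).1 hH
    simp only [mem_image, mem_univ, true_and] at hf'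
    choose a ha using hf'
    rw [phi_of_nonempty, sub_self]
    · exact sum_nonneg fun _ _ => sum_nonneg fun _ _ => sum_nonneg fun _ _ => hnn _ _
    · refine ⟨Function.extend f (fun j => (F j (a j)).2) (fun _ => true), trivial, ?_⟩
      refine Set.mem_iInter.2 fun j => Set.mem_iUnion.2 ⟨a j, ?_⟩
      simp only [lit, Set.mem_ofPred_eq, ha, hf.extend_apply]
  · push Not at hH
    obtain ⟨J, hJ⟩ := hH
    have hJm : J.card ≤ m := by simpa using card_le_univ J
    obtain ⟨W, hW, hWc⟩ := exists_superset_card_eq hJ.le (by simpa using hJm.trans hmn)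
    have h1 : ∏ j, (if j ∈ J then ∏ a, (if (F j a).1 ∈ W then (1 : ℝ) else 0) else 1) = 1 := by
      refine prod_eq_one fun j _ => ?_
      split_ifs with h
      · refine prod_eq_one fun a _ => if_pos (hW ?_)
        exact mem_biUnion.2 ⟨j, h, mem_image.2 ⟨a, mem_univ _, rfl⟩⟩
      · rfl
    have hi : J.card - 1 + 1 = J.card := by omega
    calc 1 - phi (Set.univ ∩ ⋂ j, cl k lit (F j)) ≤ 1 := by linarith [phi_nonneg (Set.univ ∩ ⋂ j, cl k lit (F j))]
      _ = _ := h1.symm
      _ ≤ ∑ W ∈ powersetCard (J.card - 1 + 1) (univ : Finset (Fin n)),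
          ∏ j, (if j ∈ J then ∏ a, (if (F j a).1 ∈ W then (1 : ℝ) else 0) else 1) :=
        single_le_sum (f := fun W : Finset (Fin n) =>
          ∏ j, (if j ∈ J then ∏ a, (if (F j a).1 ∈ W then (1 : ℝ) else 0) else 1))
          (fun W _ => hnn J W) (by simp [mem_powersetCard, hi, hWc])
      _ ≤ ∑ J' ∈ powersetCard (J.card - 1 + 1) (univ : Finset (Fin m)),
          ∑ W ∈ powersetCard (J.card - 1 + 1) (univ : Finset (Fin n)),
          ∏ j, (if j ∈ J' then ∏ a, (if (F j a).1 ∈ W then (1 : ℝ) else 0) else 1) :=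
        single_le_sum (f := fun J' : Finset (Fin m) =>
          ∑ W ∈ powersetCard (J.card - 1 + 1) (univ : Finset (Fin n)),
          ∏ j, (if j ∈ J' then ∏ a, (if (F j a).1 ∈ W then (1 : ℝ) else 0) else 1))
          (fun J' _ => sum_nonneg fun W _ => hnn J' W) (by simp [mem_powersetCard, hi])
      _ ≤ _ :=
        single_le_sum (f := fun i : ℕ => ∑ J' ∈ powersetCard (i + 1) (univ : Finset (Fin m)),
          ∑ W ∈ powersetCard (i + 1) (univ : Finset (Fin n)),
          ∏ j, (if j ∈ J' then ∏ a, (if (F j a).1 ∈ W then (1 : ℝ) else 0) else 1))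
          (fun i _ => sum_nonneg fun J' _ => sum_nonneg fun W _ => hnn J' W)
          (mem_range.2 (by omega))

lemma hall_term {k n m : ℕ} (hk : 2 ≤ k) (hn : 0 < n) (hmn : 30 * m ≤ n) (j : ℕ) (hj : j ≤ m) :
    (m.choose j : ℝ) * (n.choose j * (((j : ℝ) / n) ^ k) ^ j) ≤ (1 / 4) ^ j := by
  have hn' : (0 : ℝ) < n := by exact_mod_cast hn
  have hjn : (j : ℝ) / n ≤ 1 := by
    rw [div_le_one hn']; exact_mod_cast (by omega : j ≤ n)
  have h1 : ((j : ℝ) / n) ^ k ≤ ((j : ℝ) / n) ^ 2 := pow_le_pow_of_le_one (by positivity) hjn hk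
  have h2 : (m.choose j : ℝ) ≤ m ^ j / j.factorial := Nat.choose_le_pow_div j m
  have h3 : (n.choose j : ℝ) ≤ n ^ j / j.factorial := Nat.choose_le_pow_div j n
  have h4 : (j : ℝ) ^ j / j.factorial ≤ Real.exp 1 ^ j := by
    rw [← Real.exp_nat_mul, mul_one]
    exact Real.pow_div_factorial_le_exp j (by positivity) j
  have h5 : (m : ℝ) / n * Real.exp 1 ^ 2 ≤ 1 / 4 := by
    have e1 : (m : ℝ) / n ≤ 1 / 30 := by
      rw [div_le_div_iff₀ hn' (by norm_num)]
      have : ((30 * m : ℕ) : ℝ) ≤ n := by exact_mod_cast hmn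
      push_cast at this; linarith
    have e2 : Real.exp 1 ^ 2 ≤ 7.5 := by
      have := Real.exp_one_lt_d9
      have := Real.exp_pos 1
      nlinarith
    calc (m : ℝ) / n * Real.exp 1 ^ 2 ≤ 1 / 30 * 7.5 :=
          mul_le_mul e1 e2 (by positivity) (by norm_num)
      _ = 1 / 4 := by norm_num
  calc (m.choose j : ℝ) * (n.choose j * (((j : ℝ) / n) ^ k) ^ j)
      ≤ (m ^ j / j.factorial) * ((n ^ j / j.factorial) * (((j : ℝ) / n) ^ 2) ^ j) := by
        gcongr
    _ = (m / n) ^ j * ((j : ℝ) ^ j / j.factorial) ^ 2 := by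
        simp only [div_pow]
        field_simp
        ring
    _ ≤ (m / n) ^ j * (Real.exp 1 ^ j) ^ 2 := by gcongr
    _ = (m / n * Real.exp 1 ^ 2) ^ j := by rw [mul_pow, ← pow_mul, ← pow_mul, mul_comm j 2]
    _ ≤ (1 / 4) ^ j := pow_le_pow_left₀ (by positivity) h5 j

lemma hall_lower (k n m : ℕ) [NeZero n] (hk : 2 ≤ k) (hmn : 30 * m ≤ n) : 1 / 2 ≤ pp k n m := by
  have h1 : 1 - pp k n m = 𝔼 F : Fin m → Fin k → Fin n × Bool,
      (1 - phi (Set.univ ∩ ⋂ j, cl k lit (F j))) := by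
    rw [expect_sub_distrib, Fintype.expect_const, pp, pr, K_pow_eq_expect]
  have h2 : 1 - pp k n m ≤ ∑ i ∈ range m, (1 / 4 : ℝ) ^ (i + 1) := by
    rw [h1]
    refine (expect_le_expect fun F _ => hall_cover (by omega) F).trans ?_
    rw [expect_sum_comm]
    refine sum_le_sum fun i hi => ?_
    refine le_trans (le_of_eq ?_) (hall_term hk (Nat.pos_of_neZero n) hmn (i + 1)
      (by rw [mem_range] at hi; omega))
    rw [expect_sum_comm]
    rw [sum_congr rfl (g := fun _ => (n.choose (i + 1) : ℝ) * ((((i + 1 : ℕ) : ℝ) / n) ^ k) ^ (i + 1))]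
    · simp
    intro J hJ
    rw [expect_sum_comm]
    rw [sum_congr rfl (g := fun _ => ((((i + 1 : ℕ) : ℝ) / n) ^ k) ^ (i + 1))]
    · simp
    intro W hW
    rw [mem_powersetCard] at hJ hW
    rw [expect_prod_pi (fun j (c : Fin k → Fin n × Bool) =>
      if j ∈ J then ∏ a, (if (c a).1 ∈ W then (1 : ℝ) else 0) else 1)]
    have : ∀ j : Fin m, 𝔼 c : Fin k → Fin n × Bool,
        (if j ∈ J then ∏ a, (if (c a).1 ∈ W then (1 : ℝ) else 0) else 1) =
        if j ∈ J then (((i + 1 : ℕ) : ℝ) / n) ^ k else 1 := by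
      intro j
      split_ifs
      · rw [expect_prod_pi (fun _ (l : Fin n × Bool) => if l.1 ∈ W then (1 : ℝ) else 0)]
        simp only [expect_mem, hW.2, prod_const, card_univ, Fintype.card_fin]
      · exact Fintype.expect_const _
    simp only [this]
    rw [prod_ite_mem, univ_inter, prod_const, hJ.2]
  have h3 : ∑ i ∈ range m, (1 / 4 : ℝ) ^ (i + 1) ≤ 1 / 4 * ∑ i ∈ range m, (1 / 2 : ℝ) ^ i := by
    rw [mul_sum]
    refine sum_le_sum fun i _ => ?_
    rw [pow_succ']
    gcongr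
    norm_num
  linarith [sum_geometric_two_le m]

end Vale.Agent.P170
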