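import Vale.Agent.P170.Backbone

/-! The interpolation inequality. -/

open Finset
open scoped BigOperators

namespace Vale.Agent.P170

section abstract

variable {Ω : Type*}

lemma interp_abstract {Γ Γ₁ Γ₂ : Type*} [Fintype Γ] [Fintype Γ₁] [Fintype Γ₂]
    (C : Γ → Set Ω) (C₁ : Γ₁ → Set Ω) (C₂ : Γ₂ → Set Ω) (a b : ℝ) (ha : 0 ≤ a) (hb : 0 ≤ b)
    (h : ∀ S, a * pr C₁ 1 S + b * pr C₂ 1 S ≤ pr C 1 S) (m : ℕ) (S : Set Ω) :
    ∑ j ∈ range (m + 1), (m.choose j * a ^ j * b ^ (m - j)) *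
      (K C₁ ^ j) ((K C₂ ^ (m - j)) phi) S ≤ pr C m S := by
  set A : Module.End ℝ (Set Ω → ℝ) := a • K C₁ + b • K C₂ with hA
  have hApos : Pos A := by
    intro f g hfg U
    simp only [hA, LinearMap.add_apply, LinearMap.smul_apply, Pi.add_apply, Pi.smul_apply,
      smul_eq_mul]
    exact add_le_add (mul_le_mul_of_nonneg_left (K_pos C₁ f g hfg U) ha)
      (mul_le_mul_of_nonneg_left (K_pos C₂ f g hfg U) hb)
  have hcomm : Commute A (K C) :=
    ((K_commute C₁ C).smul_left a).add_left ((K_commute C₂ C).smul_left b)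
  have h1 : A phi ≤ K C phi := by
    intro U
    have := h U
    simpa [hA, pr] using this
  have h2 : ∀ m, (A ^ m) phi ≤ (K C ^ m) phi := by
    intro m
    induction m with
    | zero => simp
    | succ m ih =>
      calc (A ^ (m + 1)) phi = A ((A ^ m) phi) := by rw [pow_succ', Module.End.mul_apply]
        _ ≤ A ((K C ^ m) phi) := hApos _ _ ih
        _ = (K C ^ m) (A phi) :=
          congrArg (fun B : Module.End ℝ (Set Ω → ℝ) => B phi) (hcomm.pow_right m).eq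
        _ ≤ (K C ^ m) (K C phi) := (K_pos C).pow m _ _ h1
        _ = (K C ^ (m + 1)) phi := by rw [pow_succ, Module.End.mul_apply]
  refine le_trans (le_of_eq ?_) (h2 m S)
  have hc : Commute (a • K C₁) (b • K C₂) := ((K_commute C₁ C₂).smul_left a).smul_right b
  rw [hA, hc.add_pow, LinearMap.sum_apply, Finset.sum_apply]
  refine sum_congr rfl fun j _ => ?_
  simp only [smul_pow, Module.End.mul_apply, Module.End.natCast_apply, LinearMap.smul_apply,
    ← Nat.cast_smul_eq_nsmul ℝ, map_smul, Pi.smul_apply, smul_eq_mul]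
  ring

lemma product_formula {Ω₁ Ω₂ Γ₁ Γ₂ : Type*} [Fintype Γ₁] [Fintype Γ₂] (p₁ : Ω → Ω₁)
    (p₂ : Ω → Ω₂) (hp : ∀ x y, ∃ σ, p₁ σ = x ∧ p₂ σ = y) (C₁ : Γ₁ → Set Ω₁) (C₂ : Γ₂ → Set Ω₂)
    (i j : ℕ) (S₁ : Set Ω₁) (S₂ : Set Ω₂) :
    (K (fun γ => p₁ ⁻¹' C₁ γ) ^ i) ((K (fun γ => p₂ ⁻¹' C₂ γ) ^ j) phi) (p₁ ⁻¹' S₁ ∩ p₂ ⁻¹' S₂) =
      pr C₁ i S₁ * pr C₂ j S₂ := by
  induction i generalizing S₁ with
  | zero =>
    rw [pow_zero, Module.End.one_apply, pr_zero]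
    induction j generalizing S₂ with
    | zero =>
      rw [pow_zero, Module.End.one_apply, pr_zero]
      rcases S₁.eq_empty_or_nonempty with rfl | ⟨x, hx⟩
      · simp [phi_empty]
      rcases S₂.eq_empty_or_nonempty with rfl | ⟨y, hy⟩
      · simp [phi_empty]
      obtain ⟨σ, rfl, rfl⟩ := hp x y
      rw [phi_of_nonempty (S := S₁) ⟨_, hx⟩, phi_of_nonempty (S := S₂) ⟨_, hy⟩,
        phi_of_nonempty (S := p₁ ⁻¹' S₁ ∩ p₂ ⁻¹' S₂) ⟨σ, hx, hy⟩, one_mul]
    | succ j ih =>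
      rw [K_pow_succ_apply, pr_succ, mul_expect]
      refine expect_congr rfl fun γ _ => ?_
      rw [← ih, Set.preimage_inter, Set.inter_assoc]
  | succ i ih =>
    rw [K_pow_succ_apply, pr_succ, expect_mul]
    refine expect_congr rfl fun γ _ => ?_
    rw [← ih, Set.preimage_inter, Set.inter_right_comm]

end abstract

/-- Satisfiability probability in the model with independent literals. -/
noncomputable def pp (k n m : ℕ) : ℝ := pr (cl k (lit (V := Fin n))) m Set.univ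

lemma pp_nonneg (k n m : ℕ) : 0 ≤ pp k n m := pr_nonneg _ _ _

lemma pp_le_one (k n m : ℕ) [NeZero n] : pp k n m ≤ 1 := pr_le_one _ _ _

lemma pp_anti (k n : ℕ) [NeZero n] : Antitone (pp k n) := pr_anti _ _

lemma pp_zero (k n : ℕ) : pp k n 0 = 1 := by
  rw [pp, pr_zero, phi_of_nonempty Set.univ_nonempty]

lemma interp (k n₁ n₂ : ℕ) [NeZero n₁] [NeZero n₂] (m : ℕ) :
    ∑ j ∈ range (m + 1), (m.choose j * ((n₁ : ℝ) / (n₁ + n₂)) ^ j *
      ((n₂ : ℝ) / (n₁ + n₂)) ^ (m - j)) * (pp k n₁ j * pp k n₂ (m - j)) ≤ pp k (n₁ + n₂) m := by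
  have h1 : (0 : ℝ) < n₁ := by exact_mod_cast Nat.pos_of_neZero n₁
  have h2 : (0 : ℝ) < n₂ := by exact_mod_cast Nat.pos_of_neZero n₂
  let p₁ : (Fin (n₁ + n₂) → Bool) → (Fin n₁ → Bool) := fun σ i => σ (Fin.castAdd n₂ i)
  let p₂ : (Fin (n₁ + n₂) → Bool) → (Fin n₂ → Bool) := fun σ i => σ (Fin.natAdd n₁ i)
  have hp : ∀ x y, ∃ σ, p₁ σ = x ∧ p₂ σ = y := fun x y =>
    ⟨Fin.append x y, by funext i; simp [p₁], by funext i; simp [p₂]⟩
  have e1 : (fun c => p₁ ⁻¹' cl k lit c) = cl k (fun l => p₁ ⁻¹' lit l) := by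
    funext c; simp [cl]
  have e2 : (fun c => p₂ ⁻¹' cl k lit c) = cl k (fun l => p₂ ⁻¹' lit l) := by
    funext c; simp [cl]
  have := interp_abstract (cl k (lit (V := Fin (n₁ + n₂)))) (fun c => p₁ ⁻¹' cl k lit c)
    (fun c => p₂ ⁻¹' cl k lit c) ((n₁ : ℝ) / (n₁ + n₂)) ((n₂ : ℝ) / (n₁ + n₂)) (by positivity)
    (by positivity) (fun S => ?_) m Set.univ
  · refine le_trans (le_of_eq (sum_congr rfl fun j _ => ?_)) this
    congr 1
    have := product_formula p₁ p₂ hp (cl k lit) (cl k lit) j (m - j) Set.univ Set.univ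
    simp only [Set.preimage_univ, Set.inter_self] at this
    rw [this]; rfl
  · rw [e1, e2, pr_one_cl, pr_one_cl, pr_one_cl]
    have hx : xx lit S = (n₁ : ℝ) / (n₁ + n₂) * xx (fun l => p₁ ⁻¹' lit l) S +
        (n₂ : ℝ) / (n₁ + n₂) * xx (fun l => p₂ ⁻¹' lit l) S := by
      simp only [xx, Fintype.expect_eq_sum_div_card, Fintype.sum_prod_type, Fin.sum_univ_add,
        Fintype.card_prod, Fintype.card_fin, Fintype.card_bool]
      push_cast
      field_simp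
      rfl
    have hsum : (n₁ : ℝ) / (n₁ + n₂) + (n₂ : ℝ) / (n₁ + n₂) = 1 := by field_simp
    have := (convexOn_pow (𝕜 := ℝ) k).2 (xx_nonneg (fun l => p₁ ⁻¹' lit l) S)
      (xx_nonneg (fun l => p₂ ⁻¹' lit l) S) (show (0 : ℝ) ≤ (n₁ : ℝ) / (n₁ + n₂) by positivity)
      (show (0 : ℝ) ≤ (n₂ : ℝ) / (n₁ + n₂) by positivity) hsum
    simp only [smul_eq_mul] at this
    rw [hx]
    linarith

lemma pp_succ_var (k n : ℕ) [NeZero n] (m : ℕ) :
    ((n : ℝ) / (n + 1)) ^ m * pp k n m ≤ pp k (n + 1) m := by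
  refine le_trans ?_ (interp k n 1 m)
  rw [sum_range_succ]
  simp only [Nat.choose_self, Nat.sub_self, pp_zero, Nat.cast_one, pow_zero, mul_one, one_mul]
  refine le_add_of_nonneg_left (sum_nonneg fun j _ => ?_)
  have := pp_nonneg k n j
  have := pp_nonneg k 1 (m - j)
  positivity

lemma binom_sum (m : ℕ) (a : ℝ) :
    ∑ j ∈ range (m + 1), (m.choose j * a ^ j * (1 - a) ^ (m - j)) = 1 := by
  have := congrArg (Polynomial.eval a) (bernsteinPolynomial.sum ℝ m)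
  simpa [Polynomial.eval_finsetSum, bernsteinPolynomial] using this

lemma binom_var (m : ℕ) (a : ℝ) :
    ∑ j ∈ range (m + 1), (m * a - j) ^ 2 * (m.choose j * a ^ j * (1 - a) ^ (m - j)) =
      m * a * (1 - a) := by
  have := congrArg (Polynomial.eval a) (bernsteinPolynomial.variance ℝ m)
  simpa [Polynomial.eval_finsetSum, bernsteinPolynomial] using this

lemma pp_add_var (k n₁ n₂ : ℕ) [NeZero n₁] [NeZero n₂] (m m₁ m₂ : ℕ) (t : ℝ) (ht : 0 < t)
    (hm₁ : m * ((n₁ : ℝ) / (n₁ + n₂)) + t ≤ m₁) (hm₂ : m * ((n₂ : ℝ) / (n₁ + n₂)) + t ≤ m₂) :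
    pp k n₁ m₁ * pp k n₂ m₂ * (1 - m / (4 * t ^ 2)) ≤ pp k (n₁ + n₂) m := by
  have h1 : (0 : ℝ) < n₁ := by exact_mod_cast Nat.pos_of_neZero n₁
  have h2 : (0 : ℝ) < n₂ := by exact_mod_cast Nat.pos_of_neZero n₂
  refine le_trans ?_ (interp k n₁ n₂ m)
  set a : ℝ := (n₁ : ℝ) / (n₁ + n₂) with ha
  have hb : (n₂ : ℝ) / (n₁ + n₂) = 1 - a := by rw [ha]; field_simp; ring
  have ha0 : 0 ≤ a := by positivity
  have hb0 : 0 ≤ 1 - a := by rw [← hb]; positivity
  rw [hb] at hm₂ ⊢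
  set P := pp k n₁ m₁ * pp k n₂ m₂ with hP
  have hP0 : 0 ≤ P := mul_nonneg (pp_nonneg _ _ _) (pp_nonneg _ _ _)
  have key : ∀ j ∈ range (m + 1),
      P * ((m.choose j * a ^ j * (1 - a) ^ (m - j)) -
        (m * a - j) ^ 2 * (m.choose j * a ^ j * (1 - a) ^ (m - j)) / t ^ 2) ≤
      (m.choose j * a ^ j * (1 - a) ^ (m - j)) * (pp k n₁ j * pp k n₂ (m - j)) := by
    intro j hj
    rw [mem_range] at hj
    set w : ℝ := m.choose j * a ^ j * (1 - a) ^ (m - j) with hw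
    have hw0 : 0 ≤ w := by positivity
    have hq0 : 0 ≤ pp k n₁ j * pp k n₂ (m - j) := mul_nonneg (pp_nonneg _ _ _) (pp_nonneg _ _ _)
    have e : P * (w - (m * a - j) ^ 2 * w / t ^ 2) = w * (P * (1 - (m * a - j) ^ 2 / t ^ 2)) := by
      ring
    rw [e]
    refine mul_le_mul_of_nonneg_left ?_ hw0
    rcases le_total (t ^ 2) ((m * a - j) ^ 2) with h | h
    · have : 1 ≤ (m * a - j) ^ 2 / t ^ 2 := by rwa [le_div_iff₀ (by positivity), one_mul]
      nlinarith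
    · have h' := abs_le_of_sq_le_sq' h ht.le
      have hj1 : j ≤ m₁ := by
        have : (j : ℝ) ≤ m₁ := by linarith [h'.1]
        exact_mod_cast this
      have hj2 : m - j ≤ m₂ := by
        have : ((m - j : ℕ) : ℝ) ≤ m₂ := by
          rw [Nat.cast_sub (by omega)]; linarith [h'.2]
        exact_mod_cast this
      have : P ≤ pp k n₁ j * pp k n₂ (m - j) :=
        mul_le_mul (pp_anti k n₁ hj1) (pp_anti k n₂ hj2) (pp_nonneg _ _ _) (pp_nonneg _ _ _)
      have h0 : 0 ≤ (m * a - j) ^ 2 / t ^ 2 := by positivity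
      nlinarith
  refine le_trans ?_ (sum_le_sum key)
  rw [← mul_sum, sum_sub_distrib, ← sum_div, binom_sum, binom_var]
  refine mul_le_mul_of_nonneg_left ?_ hP0
  have : m * a * (1 - a) / t ^ 2 ≤ m / (4 * t ^ 2) := by
    rw [div_le_div_iff₀ (by positivity) (by positivity)]
    have hm : (0 : ℝ) ≤ m * t ^ 2 := by positivity
    nlinarith [mul_le_mul_of_nonneg_left (show a * (1 - a) * 4 ≤ 1 by nlinarith [sq_nonneg (2 * a - 1)]) hm]
  linarith

end Vale.Agent.P170
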