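import Vale.Agent.P170.Bounds

/-! Convergence of the threshold in the model with independent literals. -/

open Finset Filter Topology
open scoped BigOperators

namespace Vale.Agent.P170

/-- The sixth root. -/
noncomputable def sx (n : ℕ) : ℝ := (n : ℝ) ^ ((6 : ℕ) : ℝ)⁻¹

lemma sx_pow (n : ℕ) : sx n ^ 6 = n := Real.rpow_inv_natCast_pow (by positivity) (by norm_num)

lemma sx_nonneg (n : ℕ) : 0 ≤ sx n := Real.rpow_nonneg (by positivity) _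

lemma one_le_sx {n : ℕ} (hn : 1 ≤ n) : 1 ≤ sx n :=
  Real.one_le_rpow (by exact_mod_cast hn) (by positivity)

lemma sx_tendsto : Tendsto sx atTop atTop :=
  (tendsto_rpow_atTop (by positivity)).comp tendsto_natCast_atTop_atTop

lemma sx_small (D B δ : ℝ) (hδ : 0 < δ) : ∀ᶠ n in atTop, D * sx n ^ 5 + B ≤ δ * n := by
  filter_upwards [sx_tendsto.eventually_ge_atTop ((|D| + |B|) / δ), eventually_ge_atTop 1]
    with n h1 h2
  have h3 := one_le_sx h2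
  have h4 : 1 ≤ sx n ^ 5 := one_le_pow₀ h3
  rw [div_le_iff₀ hδ] at h1
  rw [← sx_pow n]
  have h5 := le_abs_self D
  have h6 := le_abs_self B
  have h7 := abs_nonneg B
  calc D * sx n ^ 5 + B ≤ |D| * sx n ^ 5 + |B| * sx n ^ 5 := by nlinarith
    _ = (|D| + |B|) * sx n ^ 5 := by ring
    _ ≤ (sx n * δ) * sx n ^ 5 := mul_le_mul_of_nonneg_right h1 (by positivity)
    _ = _ := by ring

lemma window' (k : ℕ) (hk : 3 ≤ k) (C ε : ℝ) (hC : 0 ≤ C) (hε : 0 < ε) :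
    ∃ D : ℝ, 0 ≤ D ∧ ∀ᶠ n : ℕ in atTop, ∀ a b : ℕ, (b : ℝ) ≤ C * n → ε ≤ pp k n b →
      a + D * sx n ^ 5 ≤ b → 1 - ε ≤ pp k n a := by
  obtain ⟨k, rfl⟩ : ∃ k', k = k' + 1 := ⟨k - 1, by omega⟩
  set L : ℝ := (k + 1) * 2 ^ (k + 2) with hL
  have hL1 : 1 ≤ L := by
    have h1 : (1 : ℝ) ≤ 2 ^ (k + 2) := one_le_pow₀ (by norm_num)
    have h2 : (0 : ℝ) ≤ k := by positivity
    nlinarith
  refine ⟨L * (C + 1) ^ 2 / ε, by positivity, ?_⟩
  filter_upwards [sx_tendsto.eventually_ge_atTop (C + 1), eventually_ge_atTop 1]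
    with n h1 h2 a b hb hp hab
  have : NeZero n := ⟨by omega⟩
  by_contra hcon
  push Not at hcon
  set s := sx n with hs
  have hs1 : 1 ≤ s := one_le_sx h2
  have hs6 : s ^ 6 = n := sx_pow n
  have hn1 : (1 : ℝ) ≤ n := by exact_mod_cast h2
  set D := L * (C + 1) ^ 2 / ε with hD
  have hD0 : 0 ≤ D * s ^ 5 := by positivity
  have hab' : a ≤ b := by
    have : (a : ℝ) ≤ b := by linarith
    exact_mod_cast this
  have hb1 : (b : ℝ) + 1 ≤ (C + 1) * s ^ 6 := by rw [hs6]; linarith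
  have hR1 : 1 ≤ (C + 1) * s ^ 2 := by nlinarith
  have hw := window (V := Fin n) k a b hab' ((C + 1) * s ^ 2) (by positivity) ?_ ?_
  · change _ * (pp (k + 1) n b * (1 - pp (k + 1) n a)) ≤ _ at hw
    rw [Fintype.card_fin, ← hs6, ← hL] at hw
    have e1 : ε * ε ≤ pp (k + 1) n b * (1 - pp (k + 1) n a) :=
      mul_le_mul hp (by linarith) hε.le (pp_nonneg _ _ _)
    have e2 : (D * s ^ 5) ^ 2 < ((b : ℝ) + 1 - a) ^ 2 :=
      pow_lt_pow_left₀ (by linarith) hD0 (by norm_num)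
    have e3 : L * (b + 1) ^ 2 * ((C + 1) * s ^ 2) ^ 2 / s ^ 6 ≤ L * (C + 1) ^ 4 * s ^ 10 := by
      rw [div_le_iff₀ (by positivity)]
      calc L * (b + 1) ^ 2 * ((C + 1) * s ^ 2) ^ 2
          ≤ L * ((C + 1) * s ^ 6) ^ 2 * ((C + 1) * s ^ 2) ^ 2 := by gcongr
        _ = _ := by ring
    have e4 : (D * s ^ 5) ^ 2 * (ε * ε) = L * (L * (C + 1) ^ 4 * s ^ 10) := by
      rw [hD]; field_simp
    have e5 : (D * s ^ 5) ^ 2 * (ε * ε) < ((b : ℝ) + 1 - a) ^ 2 * (ε * ε) :=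
      mul_lt_mul_of_pos_right e2 (by positivity)
    have e6 : ((b : ℝ) + 1 - a) ^ 2 * (ε * ε) ≤
        ((b : ℝ) + 1 - a) ^ 2 * (pp (k + 1) n b * (1 - pp (k + 1) n a)) :=
      mul_le_mul_of_nonneg_left e1 (by positivity)
    have e7 : 0 ≤ L * (C + 1) ^ 4 * s ^ 10 := by positivity
    nlinarith
  · rw [Fintype.card_fin, ← hs6]
    calc (C + 1) * s ^ 2 ≤ s * s ^ 2 := mul_le_mul_of_nonneg_right h1 (by positivity)
      _ = s ^ 3 := by ring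
      _ ≤ s ^ 6 := pow_le_pow_right₀ hs1 (by norm_num)
  · refine hb1.trans (le_trans ?_ (pow_le_pow_right₀ hR1 hk))
    have : (C + 1) ≤ (C + 1) ^ 3 := le_self_pow₀ (by linarith) (by norm_num)
    calc (C + 1) * s ^ 6 ≤ (C + 1) ^ 3 * s ^ 6 := mul_le_mul_of_nonneg_right this (by positivity)
      _ = _ := by ring

lemma upper (k : ℕ) : ∃ C : ℕ, 1 ≤ C ∧ ∀ n m : ℕ, 1 ≤ n → 3 / 4 ≤ pp k n m → m ≤ C * n := by
  have hq0 : (0 : ℝ) ≤ 1 - (1 / 2) ^ k := sub_nonneg.2 (pow_le_one₀ (by norm_num) (by norm_num))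
  have hq1 : (1 : ℝ) - (1 / 2) ^ k < 1 := by
    have : (0 : ℝ) < (1 / 2) ^ k := by positivity
    linarith
  obtain ⟨C, hC⟩ := exists_pow_lt_of_lt_one (show (0 : ℝ) < 1 / 4 by norm_num) hq1
  refine ⟨C + 1, by omega, fun n m hn h => ?_⟩
  have : NeZero n := ⟨by omega⟩
  by_contra hcon
  push Not at hcon
  have h1 := first_moment k n m
  have h2 : ((1 : ℝ) - (1 / 2) ^ k) ^ m ≤ (1 / 4) ^ n :=
    calc ((1 : ℝ) - (1 / 2) ^ k) ^ m ≤ (1 - (1 / 2) ^ k) ^ (C * n) :=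
          pow_le_pow_of_le_one hq0 hq1.le (by nlinarith)
      _ = ((1 - (1 / 2) ^ k) ^ C) ^ n := pow_mul _ _ _
      _ ≤ _ := pow_le_pow_left₀ (pow_nonneg hq0 _) hC.le n
  have h3 : (2 : ℝ) ^ n * (1 / 4) ^ n ≤ 1 / 2 := by
    rw [← mul_pow]
    calc ((2 : ℝ) * (1 / 4)) ^ n ≤ (2 * (1 / 4)) ^ 1 :=
          pow_le_pow_of_le_one (by norm_num) (by norm_num) hn
      _ = 1 / 2 := by norm_num
  have h4 : (2 : ℝ) ^ n * (1 - (1 / 2) ^ k) ^ m ≤ 2 ^ n * (1 / 4) ^ n :=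
    mul_le_mul_of_nonneg_left h2 (by positivity)
  linarith

lemma closure_sums (G : ℕ → Prop) (n₀ : ℕ) (h3 : 3 ≤ n₀)
    (hadd : ∀ n₁ n₂, n₀ ≤ n₁ → n₀ ≤ n₂ → n₁ + n₂ ≤ 4 * n₁ → n₁ + n₂ ≤ 4 * n₂ → G n₁ → G n₂ →
      G (n₁ + n₂)) (h0 : G n₀) (h1 : G (n₀ + 1)) (N : ℕ) (hN : n₀ * n₀ ≤ N) : G N := by
  have key : ∀ q, 1 ≤ q → ∀ r, r ≤ q → G (q * n₀ + r) := by
    intro q
    induction q using Nat.strong_induction_on with
    | _ q ih =>
      intro hq r hr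
      rcases Nat.lt_or_ge q 2 with h | h
      · obtain rfl : q = 1 := by omega
        interval_cases r <;> simpa
      · obtain ⟨q₁, q₂, hq1, hq2, rfl⟩ : ∃ q₁ q₂, q₁ ≤ q₂ ∧ q₂ ≤ q₁ + 1 ∧ q = q₁ + q₂ :=
          ⟨q / 2, q - q / 2, by omega, by omega, by omega⟩
        obtain ⟨r₁, r₂, hr1, hr2, rfl⟩ : ∃ r₁ r₂, r₁ ≤ q₁ ∧ r₂ ≤ q₂ ∧ r = r₁ + r₂ :=
          ⟨min r q₁, r - min r q₁, by omega, by omega, by omega⟩
        have hq1' : 1 ≤ q₁ := by omega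
        have e : (q₁ + q₂) * n₀ + (r₁ + r₂) = (q₁ * n₀ + r₁) + (q₂ * n₀ + r₂) := by ring
        rw [e]
        have f1 : q₂ * n₀ ≤ 2 * (q₁ * n₀) := by nlinarith
        have f2 : q₁ * n₀ ≤ q₂ * n₀ := Nat.mul_le_mul_right _ hq1
        have f3 : 3 * q₁ ≤ q₁ * n₀ := by nlinarith
        have f4 : n₀ ≤ q₁ * n₀ := by nlinarith
        exact hadd _ _ (by omega) (by omega) (by omega) (by omega)
          (ih q₁ (by omega) hq1' r₁ hr1) (ih q₂ (by omega) (by omega) r₂ hr2)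
  have hq : n₀ ≤ N / n₀ := (Nat.le_div_iff_mul_le (by omega)).2 hN
  have hr : N % n₀ < n₀ := Nat.mod_lt _ (by omega)
  have := key (N / n₀) (by omega) (N % n₀) (by omega)
  rwa [Nat.div_add_mod'] at this

lemma half_step (c D C : ℝ) (hD : 0 ≤ D) (hC : 0 ≤ C) (n₁ n : ℕ) (h1 : 1 ≤ n₁)
    (h2 : n ≤ 4 * n₁) (h3 : 4 * n₁ ≤ 3 * n) (m m₁ : ℝ)
    (hm : m ≤ c * n + ((24 * D + 50 * (C + 1)) + D) * sx n ^ 5 + 2)
    (hm₁ : c * n₁ + (24 * D + 50 * (C + 1)) * sx n₁ ^ 5 ≤ m₁) :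
    m * ((n₁ : ℝ) / n) + C * sx n ^ 3 ≤ m₁ := by
  have hn : 1 ≤ n := by omega
  have hnn : (n₁ : ℝ) ≤ n := by exact_mod_cast (by omega : n₁ ≤ n)
  have hn0 : (0 : ℝ) < n := by exact_mod_cast hn
  set s := sx n with hs
  set s₁ := sx n₁ with hs₁
  have hs1 : 1 ≤ s := one_le_sx hn
  have hs11 : 1 ≤ s₁ := one_le_sx h1
  have hs6 : s ^ 6 = n := sx_pow n
  have hs16 : s₁ ^ 6 = n₁ := sx_pow n₁
  have h2' : (n : ℝ) ≤ 4 * n₁ := by exact_mod_cast h2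
  have h3' : 4 * (n₁ : ℝ) ≤ 3 * n := by exact_mod_cast h3
  have e1 : s₁ ≤ 24 / 25 * s := by
    refine le_of_pow_le_pow_left₀ (n := 6) (by norm_num) (by positivity) ?_
    rw [mul_pow, hs6, hs16]
    nlinarith
  have e2 : s ^ 3 ≤ 2 * s₁ ^ 3 := by
    refine le_of_pow_le_pow_left₀ (n := 2) (by norm_num) (by positivity) ?_
    rw [mul_pow, ← pow_mul, ← pow_mul, hs6, hs16]
    linarith
  have e3 : s ^ 5 * ((n₁ : ℝ) / n) ≤ 24 / 25 * s₁ ^ 5 := by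
    rw [← hs6, ← hs16, mul_div_assoc', div_le_iff₀ (by positivity)]
    calc s ^ 5 * s₁ ^ 6 = s ^ 5 * s₁ ^ 5 * s₁ := by ring
      _ ≤ s ^ 5 * s₁ ^ 5 * (24 / 25 * s) := mul_le_mul_of_nonneg_left e1 (by positivity)
      _ = _ := by ring
  have e4 : (n₁ : ℝ) / n ≤ 1 := (div_le_one hn0).2 hnn
  have e5 : 0 ≤ (n₁ : ℝ) / n := by positivity
  have e6 : c * n * ((n₁ : ℝ) / n) = c * n₁ := by field_simp
  have e7 : s₁ ^ 3 ≤ s₁ ^ 5 := pow_le_pow_right₀ hs11 (by norm_num)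
  have e8 : 1 ≤ s₁ ^ 5 := one_le_pow₀ hs11
  have e9 := mul_le_mul_of_nonneg_right hm e5
  have e10 : ((24 * D + 50 * (C + 1)) + D) * (s ^ 5 * ((n₁ : ℝ) / n)) ≤
      ((24 * D + 50 * (C + 1)) + D) * (24 / 25 * s₁ ^ 5) :=
    mul_le_mul_of_nonneg_left e3 (by positivity)
  have e11 : C * s ^ 3 ≤ C * (2 * s₁ ^ 5) := mul_le_mul_of_nonneg_left (by linarith) hC
  nlinarith

lemma all_good (k : ℕ) (hk : 3 ≤ k) (c c' : ℝ) (hc : 0 ≤ c) (hcc : c < c')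
    (h : ∃ᶠ n : ℕ in atTop, ∃ m : ℕ, c' * n ≤ m ∧ 3 / 4 ≤ pp k n m) :
    ∀ᶠ n : ℕ in atTop, ∃ m : ℕ, c * n ≤ m ∧ 3 / 4 ≤ pp k n m := by
  obtain ⟨C, hC1, hC⟩ := upper k
  have hC1' : (1 : ℝ) ≤ C := by exact_mod_cast hC1
  set ε : ℝ := 1 / 4 * Real.exp (-C) with hε
  have hε0 : 0 < ε := by positivity
  have hε1 : ε ≤ 1 / 4 := by
    have : Real.exp (-C) ≤ 1 := Real.exp_le_one_iff.2 (by linarith)
    linarith
  obtain ⟨D, hD0, hD⟩ := window' k hk C ε (by positivity) hε0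
  set E : ℝ := 24 * D + 50 * (C + 1) with hE
  have hE0 : 0 ≤ E := by positivity
  obtain ⟨N₀, hN₀⟩ := eventually_atTop.1 hD
  have ev1 := sx_small E 0 (c' - c) (by linarith)
  have ev2 := (tendsto_add_atTop_nat 1).eventually (sx_small (E + D) (c' + 1) (c' - c) (by linarith))
  obtain ⟨n₀, ⟨m₀, hm₀, hp₀⟩, ⟨f1, f2⟩, f3, f4⟩ :=
    (h.and_eventually ((ev1.and ev2).and ((eventually_ge_atTop N₀).and
      (eventually_ge_atTop 3)))).exists
  let G : ℕ → Prop := fun n => ∃ m : ℕ, c * n + E * sx n ^ 5 ≤ m ∧ 3 / 4 ≤ pp k n m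
  have hG := closure_sums G n₀ f4 ?_ ⟨m₀, by linarith, hp₀⟩ ?_
  · filter_upwards [eventually_ge_atTop (n₀ * n₀)] with n hn
    obtain ⟨m, hm, hp⟩ := hG n hn
    have : 0 ≤ E * sx n ^ 5 := mul_nonneg hE0 (pow_nonneg (sx_nonneg n) _)
    exact ⟨m, by linarith, hp⟩
  · rintro n₁ n₂ g1 g2 g3 g4 ⟨m₁, hm₁, hp₁⟩ ⟨m₂, hm₂, hp₂⟩
    have : NeZero n₁ := ⟨by omega⟩
    have : NeZero n₂ := ⟨by omega⟩
    set n := n₁ + n₂ with hn
    have hs1 : 1 ≤ sx n := one_le_sx (by omega)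
    have hnr : (n₁ : ℝ) + n₂ = n := by rw [hn]; push_cast; ring
    have hn0 : (0 : ℝ) < n := by exact_mod_cast (by omega : 0 < n)
    have x0 : 0 ≤ c * n + E * sx n ^ 5 := by positivity
    have y0 : 0 ≤ D * sx n ^ 5 := by positivity
    set m' := ⌈c * n + E * sx n ^ 5⌉₊ with hm'
    set m := m' + ⌈D * sx n ^ 5⌉₊ with hm
    have hmle : (m : ℝ) ≤ c * n + (E + D) * sx n ^ 5 + 2 := by
      have a1 := Nat.ceil_lt_add_one x0
      have a2 := Nat.ceil_lt_add_one y0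
      rw [hm]; push_cast; linarith
    have s1 := half_step c D C hD0 (by positivity) n₁ n (by omega) g3 (by omega) m m₁ hmle hm₁
    have s2 := half_step c D C hD0 (by positivity) n₂ n (by omega) g4 (by omega) m m₂ hmle hm₂
    have ht : 0 < C * sx n ^ 3 := by positivity
    have hmC : (m : ℝ) ≤ C * n := by
      have a1 : (m₁ : ℝ) ≤ C * n₁ := by exact_mod_cast hC n₁ m₁ (by omega) hp₁
      have a2 : (m₂ : ℝ) ≤ C * n₂ := by exact_mod_cast hC n₂ m₂ (by omega) hp₂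
      have a3 : m * ((n₁ : ℝ) / n) + m * ((n₂ : ℝ) / n) = m := by
        rw [← mul_add, ← add_div, hnr, div_self hn0.ne', mul_one]
      rw [← hnr, mul_add]; linarith
    have hadd := pp_add_var k n₁ n₂ m m₁ m₂ (C * sx n ^ 3) ht (by rw [hnr]; exact s1)
      (by rw [hnr]; exact s2)
    have a4 : (m : ℝ) / (4 * (C * sx n ^ 3) ^ 2) ≤ 1 / 4 := by
      rw [div_le_div_iff₀ (by positivity) (by norm_num), mul_pow, ← pow_mul, sx_pow]
      nlinarith [mul_le_mul_of_nonneg_right hC1' (show (0 : ℝ) ≤ C * n by positivity)]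
    have a5 : 3 / 4 * (3 / 4) ≤ pp k n₁ m₁ * pp k n₂ m₂ :=
      mul_le_mul hp₁ hp₂ (by norm_num) (pp_nonneg _ _ _)
    have a6 : 3 / 4 * (3 / 4) * (3 / 4) ≤
        pp k n₁ m₁ * pp k n₂ m₂ * (1 - m / (4 * (C * sx n ^ 3) ^ 2)) :=
      mul_le_mul a5 (by linarith) (by norm_num) (by linarith)
    refine ⟨m', Nat.le_ceil _, ?_⟩
    have := hN₀ n (by omega) m' m hmC (by linarith)
      (by rw [hm]; push_cast; linarith [Nat.le_ceil (D * sx n ^ 5)])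
    linarith
  · have : NeZero n₀ := ⟨by omega⟩
    have hn0 : (0 : ℝ) < n₀ := by exact_mod_cast (by omega : 0 < n₀)
    have hmC : (m₀ : ℝ) ≤ C * n₀ := by exact_mod_cast hC n₀ m₀ (by omega) hp₀
    have x0 : 0 ≤ c * (n₀ + 1 : ℕ) + E * sx (n₀ + 1) ^ 5 := by
      have := sx_nonneg (n₀ + 1)
      positivity
    refine ⟨⌈c * (n₀ + 1 : ℕ) + E * sx (n₀ + 1) ^ 5⌉₊, Nat.le_ceil _, ?_⟩
    have a1 : Real.exp (-C) ≤ ((n₀ : ℝ) / (n₀ + 1)) ^ m₀ := by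
      have b1 : Real.exp (-(1 / n₀)) ≤ (n₀ : ℝ) / (n₀ + 1) := by
        rw [Real.exp_neg, inv_le_comm₀ (Real.exp_pos _) (by positivity), inv_div]
        have := Real.add_one_le_exp (1 / (n₀ : ℝ))
        refine le_trans (le_of_eq ?_) this
        field_simp; ring
      refine le_trans ?_ (pow_le_pow_left₀ (Real.exp_pos _).le b1 m₀)
      rw [← Real.exp_nat_mul, Real.exp_le_exp, mul_neg, neg_le_neg_iff, mul_one_div,
        div_le_iff₀ hn0]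
      exact hmC
    have a2 := pp_succ_var k n₀ m₀
    have a3 : Real.exp (-C) * (3 / 4) ≤ ((n₀ : ℝ) / (n₀ + 1)) ^ m₀ * pp k n₀ m₀ :=
      mul_le_mul a1 hp₀ (by norm_num) (by positivity)
    have a4 := Nat.ceil_lt_add_one x0
    have := hN₀ (n₀ + 1) (by omega) ⌈c * (n₀ + 1 : ℕ) + E * sx (n₀ + 1) ^ 5⌉₊ m₀
      (by push_cast; linarith) (by linarith [Real.exp_pos (-C)])
      (by push_cast at f2 a4 ⊢; linarith)
    linarith

theorem threshold_pp (k : ℕ) (hk : 3 ≤ k) : ∃ α : ℝ, 0 < α ∧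
    (∀ c : ℝ, 0 ≤ c → c < α → Tendsto (fun n : ℕ => pp k n ⌊c * n⌋₊) atTop (𝓝 1)) ∧
    (∀ c : ℝ, α < c → Tendsto (fun n : ℕ => pp k n ⌊c * n⌋₊) atTop (𝓝 0)) := by
  obtain ⟨C, hC1, hC⟩ := upper k
  let A : Set ℝ := {c | ∃ᶠ n : ℕ in atTop, ∃ m : ℕ, c * n ≤ m ∧ 3 / 4 ≤ pp k n m}
  have hbdd : BddAbove A := by
    refine ⟨C, fun c hc => ?_⟩
    obtain ⟨n, ⟨m, hm, hp⟩, hn⟩ := (Frequently.and_eventually hc (eventually_ge_atTop 1)).exists
    have a1 : (m : ℝ) ≤ C * n := by exact_mod_cast hC n m hn hp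
    have hn0 : (0 : ℝ) < n := by exact_mod_cast hn
    exact le_of_mul_le_mul_right (hm.trans a1) hn0
  have hmem : (1 / 60 : ℝ) ∈ A := by
    obtain ⟨D, hD0, hD⟩ := window' k hk 1 (1 / 4) (by norm_num) (by norm_num)
    refine Eventually.frequently ?_
    filter_upwards [hD, sx_small D 2 (1 / 60) (by norm_num), eventually_ge_atTop 1]
      with n h1 h2 h3
    have : NeZero n := ⟨by omega⟩
    refine ⟨⌈(1 / 60 : ℝ) * n⌉₊, Nat.le_ceil _, ?_⟩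
    have a1 := hall_lower k n (n / 30) (by omega) (by omega)
    have a2 := Nat.ceil_lt_add_one (show (0 : ℝ) ≤ 1 / 60 * n by positivity)
    have a3 : (n : ℝ) ≤ 30 * ((n / 30 : ℕ) : ℝ) + 30 := by
      exact_mod_cast (by omega : n ≤ 30 * (n / 30) + 30)
    have := h1 ⌈(1 / 60 : ℝ) * n⌉₊ (n / 30)
      (by rw [one_mul]; exact_mod_cast Nat.div_le_self _ _) (by linarith) (by linarith)
    linarith
  have hα : 1 / 60 ≤ sSup A := le_csSup hbdd hmem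
  refine ⟨sSup A, by linarith, fun c hc0 hc => ?_, fun c hc => ?_⟩
  · obtain ⟨c', hc', hcc'⟩ := exists_lt_of_lt_csSup ⟨_, hmem⟩ hc
    have hg := all_good k hk ((c + c') / 2) c' (by linarith) (by linarith) hc'
    rw [tendsto_order]
    refine ⟨fun b hb => ?_, fun b hb => ?_⟩
    · obtain ⟨D, hD0, hD⟩ := window' k hk C (min (3 / 4) ((1 - b) / 2)) (by positivity)
        (lt_min (by norm_num) (by linarith))
      filter_upwards [hD, hg, sx_small D 0 ((c' - c) / 2) (by linarith), eventually_ge_atTop 1]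
        with n h1 ⟨m, hm, hp⟩ h3 h4
      have a1 : (m : ℝ) ≤ C * n := by exact_mod_cast hC n m h4 hp
      have a2 := Nat.floor_le (show (0 : ℝ) ≤ c * n by positivity)
      have := h1 ⌊c * n⌋₊ m a1 ((min_le_left _ _).trans hp) (by linarith)
      linarith [min_le_right (3 / 4) ((1 - b) / 2)]
    · filter_upwards [eventually_ge_atTop 1] with n hn
      have : NeZero n := ⟨by omega⟩
      exact (pp_le_one _ _ _).trans_lt hb
  · have hnot : (sSup A + c) / 2 ∉ A := notMem_of_csSup_lt (by linarith) hbdd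
    have hev : ∀ᶠ n : ℕ in atTop, ¬ ∃ m : ℕ, (sSup A + c) / 2 * n ≤ m ∧ 3 / 4 ≤ pp k n m :=
      not_frequently.1 hnot
    rw [tendsto_order]
    refine ⟨fun b hb => Eventually.of_forall fun n => hb.trans_le (pp_nonneg _ _ _),
      fun b hb => ?_⟩
    obtain ⟨D, hD0, hD⟩ := window' k hk c (min (1 / 4) b) (by linarith)
      (lt_min (by norm_num) hb)
    filter_upwards [hD, hev, sx_small D 2 ((c - sSup A) / 2) (by linarith)] with n h1 h2 h3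
    by_contra hcon
    push Not at hcon
    have hc0 : 0 ≤ c := by linarith
    have hc1 : 0 ≤ (sSup A + c) / 2 := by linarith
    have a2 := Nat.floor_le (show (0 : ℝ) ≤ c * n by positivity)
    have a3 := Nat.lt_floor_add_one (c * n)
    have a4 := Nat.ceil_lt_add_one (show (0 : ℝ) ≤ (sSup A + c) / 2 * n by positivity)
    have := h1 ⌈(sSup A + c) / 2 * n⌉₊ ⌊c * n⌋₊ a2 ((min_le_right _ _).trans hcon) (by linarith)
    exact h2 ⟨_, Nat.le_ceil _, by linarith [min_le_left (1 / 4) b]⟩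

end Vale.Agent.P170
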