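import Mathlib

/-! Markov operators on functions of solution sets. -/

open Finset
open scoped BigOperators

namespace Vale.Agent.P170

variable {Ω : Type*}

/-- Intersect the current set with a uniformly random member of the family `C`. -/
noncomputable def K {Γ : Type*} [Fintype Γ] (C : Γ → Set Ω) : Module.End ℝ (Set Ω → ℝ) where
  toFun f S := 𝔼 γ, f (S ∩ C γ)
  map_add' f g := by
    funext S
    simp only [Pi.add_apply, expect_add_distrib]
  map_smul' c f := by
    funext S
    simp only [Pi.smul_apply, smul_eq_mul, RingHom.id_apply, mul_expect]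

open Classical in
/-- Indicator of nonemptiness. -/
noncomputable def phi (S : Set Ω) : ℝ := if S.Nonempty then 1 else 0

section basic

variable {Γ : Type*} [Fintype Γ] (C : Γ → Set Ω)

lemma K_apply (f : Set Ω → ℝ) (S : Set Ω) : K C f S = 𝔼 γ, f (S ∩ C γ) := rfl

lemma phi_nonneg (S : Set Ω) : 0 ≤ phi S := by unfold phi; split_ifs <;> norm_num

lemma phi_le_one (S : Set Ω) : phi S ≤ 1 := by unfold phi; split_ifs <;> norm_num

lemma phi_of_nonempty {S : Set Ω} (h : S.Nonempty) : phi S = 1 := by simp [phi, h]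

lemma phi_empty : phi (∅ : Set Ω) = 0 := by simp [phi]

lemma phi_mono : Monotone (phi : Set Ω → ℝ) := by
  intro S T h
  rcases S.eq_empty_or_nonempty with rfl | hS
  · rw [phi_empty]; exact phi_nonneg _
  · rw [phi_of_nonempty hS, phi_of_nonempty (hS.mono h)]

lemma K_commute {Γ' : Type*} [Fintype Γ'] (D : Γ' → Set Ω) : Commute (K C) (K D) := by
  change K C * K D = K D * K C
  ext f S
  simp only [Module.End.mul_apply, K_apply]
  rw [expect_comm]
  refine expect_congr rfl fun γ _ => expect_congr rfl fun δ _ => ?_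
  rw [Set.inter_right_comm]

/-- Positive operators. -/
def Pos (A : Module.End ℝ (Set Ω → ℝ)) : Prop := ∀ f g : Set Ω → ℝ, f ≤ g → A f ≤ A g

lemma Pos.pow {A : Module.End ℝ (Set Ω → ℝ)} (hA : Pos A) (t : ℕ) : Pos (A ^ t) := by
  induction t with
  | zero => intro f g h; simpa using h
  | succ t ih =>
    intro f g h
    rw [pow_succ, Module.End.mul_apply, Module.End.mul_apply]
    exact ih _ _ (hA _ _ h)

lemma Pos.nonneg {A : Module.End ℝ (Set Ω → ℝ)} (hA : Pos A) {f : Set Ω → ℝ} (hf : 0 ≤ f) :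
    0 ≤ A f := by
  simpa using hA 0 f hf

lemma K_pos : Pos (K C) := by
  intro f g h S
  exact expect_le_expect fun γ _ => h _

lemma K_pow_succ_apply (t : ℕ) (f : Set Ω → ℝ) (S : Set Ω) :
    (K C ^ (t + 1)) f S = 𝔼 γ, (K C ^ t) f (S ∩ C γ) := by
  rw [pow_succ', Module.End.mul_apply, K_apply]

lemma K_const [Nonempty Γ] (c : ℝ) : K C (fun _ => c) = fun _ => c := by
  funext S
  simp [K_apply]

lemma K_pow_const [Nonempty Γ] (t : ℕ) (c : ℝ) : (K C ^ t) (fun _ => c) = fun _ => c := by
  induction t with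
  | zero => simp
  | succ t ih => rw [pow_succ', Module.End.mul_apply, ih, K_const]

lemma K_pow_le_const [Nonempty Γ] (t : ℕ) {f : Set Ω → ℝ} {c : ℝ} (h : ∀ S, f S ≤ c)
    (S : Set Ω) : (K C ^ t) f S ≤ c := by
  have := (K_pos C).pow t f (fun _ => c) h S
  rwa [K_pow_const] at this

lemma K_pow_mono (t : ℕ) {f : Set Ω → ℝ} (hf : Monotone f) : Monotone ((K C ^ t) f) := by
  induction t with
  | zero => simpa using hf
  | succ t ih =>
    intro S T h
    rw [K_pow_succ_apply, K_pow_succ_apply]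
    exact expect_le_expect fun γ _ => ih (Set.inter_subset_inter_left _ h)

lemma K_le_self [Nonempty Γ] {f : Set Ω → ℝ} (hf : Monotone f) : K C f ≤ f := by
  intro S
  exact expect_le univ_nonempty fun γ _ => hf Set.inter_subset_left

lemma K_pow_empty (t : ℕ) {f : Set Ω → ℝ} (hf : f ∅ = 0) : (K C ^ t) f ∅ = 0 := by
  induction t with
  | zero => simpa using hf
  | succ t ih =>
    rw [K_pow_succ_apply]
    simp [ih]

lemma K_pow_inter (t : ℕ) (f : Set Ω → ℝ) (S T : Set Ω) :
    (K C ^ t) (fun U => f (U ∩ T)) S = (K C ^ t) f (S ∩ T) := by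
  induction t generalizing S with
  | zero => simp
  | succ t ih =>
    rw [K_pow_succ_apply, K_pow_succ_apply]
    refine expect_congr rfl fun γ _ => ?_
    rw [ih, Set.inter_right_comm]

lemma K_pow_expect {Λ : Type*} [Fintype Λ] (t : ℕ) (f : Λ → Set Ω → ℝ) (S : Set Ω) :
    (K C ^ t) (fun U => 𝔼 l, f l U) S = 𝔼 l, (K C ^ t) (f l) S := by
  induction t generalizing S with
  | zero => simp
  | succ t ih =>
    simp only [K_pow_succ_apply, ih]
    rw [expect_comm]

lemma sq_expect_le [Nonempty Γ] (f : Γ → ℝ) : (𝔼 γ, f γ) ^ 2 ≤ 𝔼 γ, f γ ^ 2 := by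
  have := expect_mul_sq_le_sq_mul_sq univ f (fun _ => (1 : ℝ))
  simpa using this

/-- Survival probabilities. -/
noncomputable def pr (t : ℕ) (S : Set Ω) : ℝ := (K C ^ t) phi S

lemma pr_zero (S : Set Ω) : pr C 0 S = phi S := by simp [pr]

lemma pr_succ (t : ℕ) (S : Set Ω) : pr C (t + 1) S = 𝔼 γ, pr C t (S ∩ C γ) :=
  K_pow_succ_apply C t phi S

lemma pr_nonneg (t : ℕ) (S : Set Ω) : 0 ≤ pr C t S :=
  ((K_pos C).pow t).nonneg (fun S => phi_nonneg S) S

lemma pr_le_one [Nonempty Γ] (t : ℕ) (S : Set Ω) : pr C t S ≤ 1 :=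
  K_pow_le_const C t phi_le_one S

lemma pr_mono (t : ℕ) : Monotone (pr C t) := K_pow_mono C t phi_mono

lemma pr_empty (t : ℕ) : pr C t ∅ = 0 := K_pow_empty C t phi_empty

lemma pr_succ_le [Nonempty Γ] (t : ℕ) (S : Set Ω) : pr C (t + 1) S ≤ pr C t S := by
  rw [pr_succ]
  exact expect_le univ_nonempty fun γ _ => pr_mono C t Set.inter_subset_left

lemma pr_anti [Nonempty Γ] (S : Set Ω) : Antitone fun t => pr C t S :=
  antitone_nat_of_succ_le fun t => pr_succ_le C t S

lemma pr_succ_le_mul (t : ℕ) (S : Set Ω) : pr C (t + 1) S ≤ pr C 1 S * pr C t S := by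
  rw [pr_succ, pr_succ, expect_mul]
  refine expect_le_expect fun γ _ => ?_
  rw [pr_zero]
  rcases (S ∩ C γ).eq_empty_or_nonempty with h | h
  · rw [h, pr_empty, phi_empty, zero_mul]
  · rw [phi_of_nonempty h, one_mul]
    exact pr_mono C t Set.inter_subset_left

lemma pr_le_pow (t : ℕ) (S : Set Ω) : pr C t S ≤ pr C 1 S ^ t := by
  induction t with
  | zero => rw [pr_zero, pow_zero]; exact phi_le_one S
  | succ t ih =>
    rw [pow_succ']
    exact (pr_succ_le_mul C t S).trans (mul_le_mul_of_nonneg_left ih (pr_nonneg C 1 S))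

/-- The power of `K` is an average over sequences. -/
lemma K_pow_eq_expect [Nonempty Γ] (m : ℕ) (f : Set Ω → ℝ) (S : Set Ω) :
    (K C ^ m) f S = 𝔼 F : Fin m → Γ, f (S ∩ ⋂ j, C (F j)) := by
  induction m generalizing S with
  | zero => simp
  | succ m ih =>
    rw [K_pow_succ_apply]
    simp only [ih]
    rw [← expect_product', univ_product_univ]
    refine Fintype.expect_equiv (Fin.consEquiv fun _ => Γ) _ _ fun x => ?_
    congr 1
    ext σ
    simp [Fin.consEquiv, Fin.forall_fin_succ, and_assoc]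

end basic

end Vale.Agent.P170
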