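import Vale.Agent.P170.Limit
import Vale.Agent.P170.Defs

/-! Transfer from independent literals to proper clauses. -/

open Finset Filter Topology
open scoped BigOperators

namespace Vale.Agent.P170

/-- There are finitely many clauses. -/
instance clauseFintype (k n : ℕ) : Fintype (Clause k n) := Subtype.fintype _

/-- Solution set of a proper clause. -/
def sol {k n : ℕ} (C : Clause k n) : Set (Fin n → Bool) := {σ | ∃ l ∈ C.1, σ l.1 = l.2}

lemma satProb_eq (k n m : ℕ) [Nonempty (Clause k n)] :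
    satProb k n m = pr (sol (k := k) (n := n)) m Set.univ := by
  let i2 : DecidablePred (Satisfiable (k := k) (n := n) (m := m)) := Classical.decPred _
  rw [pr, K_pow_eq_expect, Fintype.expect_eq_sum_div_card, satProb, Nat.card_eq_fintype_card,
    Nat.card_eq_fintype_card, Fintype.card_subtype]
  congr 1
  rw [card_filter]
  push_cast
  refine sum_congr rfl fun F _ => ?_
  unfold phi
  congr 1
  simp [Satisfiable, Set.Nonempty, sol]

/-- Orderings of a proper clause. -/
def ord {k n : ℕ} (x : Σ C : Clause k n, Fin k ↪ C.1) : Fin k → Fin n × Bool :=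
  fun i => (x.2 i).1

lemma image_ord {k n : ℕ} (x : Σ C : Clause k n, Fin k ↪ C.1) :
    univ.image (ord x) = x.1.1 := by
  refine eq_of_subset_of_card_le ?_ ?_
  · intro l hl
    obtain ⟨i, _, rfl⟩ := mem_image.1 hl
    exact (x.2 i).2
  · have : Function.Injective (ord x) := fun i j h => x.2.injective (Subtype.ext h)
    rw [card_image_of_injective _ this, x.1.2.1]
    simp

lemma ord_injective {k n : ℕ} : Function.Injective (ord (k := k) (n := n)) := by
  rintro ⟨C, e⟩ ⟨C', e'⟩ h
  have h1 : C = C' := by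
    apply Subtype.ext
    have := image_ord ⟨C, e⟩
    rw [h, image_ord] at this
    exact this.symm
  subst h1
  congr 1
  ext i : 1
  exact Subtype.ext (congrFun h i)

lemma cl_ord {k n : ℕ} (x : Σ C : Clause k n, Fin k ↪ C.1) : cl k lit (ord x) = sol x.1 := by
  ext σ
  simp [cl, lit, sol, ← image_ord x]

lemma card_clause (k n : ℕ) :
    n.descFactorial k * 2 ^ k ≤ Fintype.card (Clause k n) * k.factorial := by
  have h1 : Fintype.card (Σ C : Clause k n, Fin k ↪ C.1) =
      Fintype.card (Clause k n) * k.factorial := by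
    rw [Fintype.card_sigma]
    simp only [Fintype.card_embedding_eq, Fintype.card_coe, Fintype.card_fin]
    rw [sum_congr rfl (g := fun _ => k.factorial)]
    · simp
    · intro C _
      rw [C.2.1, Nat.descFactorial_self]
  have h2 : Fintype.card ((Fin k ↪ Fin n) × (Fin k → Bool)) = n.descFactorial k * 2 ^ k := by
    simp
  rw [← h1, ← h2]
  have key : ∀ y : (Fin k ↪ Fin n) × (Fin k → Bool),
      ∃ x : Σ C : Clause k n, Fin k ↪ C.1, ord x = fun i => (y.1 i, y.2 i) := by
    rintro ⟨e, s⟩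
    have hinj : Function.Injective fun i => (e i, s i) := fun i j h =>
      e.injective (congrArg Prod.fst h)
    refine ⟨⟨⟨univ.image fun i => (e i, s i), ?_, ?_⟩,
      ⟨fun i => ⟨(e i, s i), mem_image_of_mem _ (mem_univ i)⟩, fun i j h =>
        hinj (congrArg Subtype.val h)⟩⟩, rfl⟩
    · rw [card_image_of_injective _ hinj]; simp
    · intro l hl l' hl' h
      obtain ⟨i, _, rfl⟩ := mem_image.1 hl
      obtain ⟨j, _, rfl⟩ := mem_image.1 hl'
      rw [e.injective h]
  choose g hg using key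
  refine Fintype.card_le_of_injective g fun y y' h => ?_
  have := hg y
  rw [h, hg y'] at this
  refine Prod.ext (Function.Embedding.ext fun i => ?_) (funext fun i => ?_)
  · exact (congrArg Prod.fst (congrFun this i)).symm
  · exact (congrArg Prod.snd (congrFun this i)).symm

lemma clause_nonempty {k n : ℕ} (h : k ≤ n) : Nonempty (Clause k n) := by
  rw [← Fintype.card_pos_iff]
  have h1 := card_clause k n
  have h2 : 0 < n.descFactorial k * 2 ^ k := mul_pos (Nat.descFactorial_pos.2 h) (by positivity)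
  exact Nat.pos_of_mul_pos_right (h2.trans_le h1)

lemma dominate_one (k n : ℕ) [NeZero n] [Nonempty (Clause k n)] (f : Set (Fin n → Bool) → ℝ)
    (hf : 0 ≤ f) (S : Set (Fin n → Bool)) :
    (n.descFactorial k : ℝ) / n ^ k * K (sol (k := k) (n := n)) f S ≤ K (cl k lit) f S := by
  have hn : (0 : ℝ) < n := by exact_mod_cast Nat.pos_of_neZero n
  have hN : (0 : ℝ) < Fintype.card (Clause k n) := by exact_mod_cast Fintype.card_pos
  have h1 : (k.factorial : ℝ) * ∑ C : Clause k n, f (S ∩ sol C) ≤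
      ∑ c : Fin k → Fin n × Bool, f (S ∩ cl k lit c) := by
    calc (k.factorial : ℝ) * ∑ C : Clause k n, f (S ∩ sol C)
        = ∑ x : Σ C : Clause k n, Fin k ↪ C.1, f (S ∩ cl k lit (ord x)) := by
          rw [Fintype.sum_sigma, mul_sum]
          refine sum_congr rfl fun C _ => ?_
          simp only [cl_ord, sum_const, card_univ, Fintype.card_embedding_eq, Fintype.card_coe,
            Fintype.card_fin, C.2.1, Nat.descFactorial_self, nsmul_eq_mul]
      _ = ∑ c ∈ univ.map ⟨ord, ord_injective⟩, f (S ∩ cl k lit c) := by rw [sum_map]; rfl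
      _ ≤ _ := sum_le_sum_of_subset_of_nonneg (subset_univ _) fun _ _ _ => hf _
  have h2 : (n.descFactorial k : ℝ) * 2 ^ k ≤ Fintype.card (Clause k n) * k.factorial := by
    exact_mod_cast card_clause k n
  have h3 : 0 ≤ ∑ C : Clause k n, f (S ∩ sol C) := sum_nonneg fun _ _ => hf _
  simp only [K_apply, Fintype.expect_eq_sum_div_card, Fintype.card_fun, Fintype.card_prod,
    Fintype.card_fin, Fintype.card_bool]
  push_cast
  rw [div_mul_div_comm, div_le_div_iff₀ (by positivity) (by positivity), mul_pow]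
  calc (n.descFactorial k : ℝ) * (∑ C : Clause k n, f (S ∩ sol C)) * (n ^ k * 2 ^ k)
      = (n.descFactorial k * 2 ^ k) * ((∑ C : Clause k n, f (S ∩ sol C)) * n ^ k) := by ring
    _ ≤ (Fintype.card (Clause k n) * k.factorial) * ((∑ C : Clause k n, f (S ∩ sol C)) * n ^ k) :=
      mul_le_mul_of_nonneg_right h2 (by positivity)
    _ = (k.factorial * ∑ C : Clause k n, f (S ∩ sol C)) * (n ^ k * Fintype.card (Clause k n)) := by
      ring
    _ ≤ _ := mul_le_mul_of_nonneg_right h1 (by positivity)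

lemma dominate (k n m : ℕ) [NeZero n] [Nonempty (Clause k n)] (f : Set (Fin n → Bool) → ℝ)
    (hf : 0 ≤ f) :
    ((n.descFactorial k : ℝ) / n ^ k) ^ m • (K (sol (k := k) (n := n)) ^ m) f ≤
      (K (cl k lit) ^ m) f := by
  induction m with
  | zero => simp
  | succ m ih =>
    intro S
    have h1 := K_pos (cl k lit) _ _ ih S
    have h2 := dominate_one k n _ (((K_pos (sol (k := k) (n := n))).pow m).nonneg hf) S
    rw [map_smul, Pi.smul_apply, smul_eq_mul] at h1
    rw [pow_succ' (K _), pow_succ' (K _), Module.End.mul_apply, Module.End.mul_apply,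
      Pi.smul_apply, smul_eq_mul, pow_succ, mul_assoc]
    exact (mul_le_mul_of_nonneg_left h2 (by positivity)).trans h1

lemma pi_lower (k n m : ℕ) (hn : 2 * k ≤ n) (hn1 : 1 ≤ n) (c : ℝ) (hm : (m : ℝ) ≤ c * n) :
    Real.exp (-(2 * k ^ 2 * c)) ≤ ((n.descFactorial k : ℝ) / n ^ k) ^ m := by
  have hn0 : (0 : ℝ) < n := by exact_mod_cast hn1
  have hn' : 2 * (k : ℝ) ≤ n := by exact_mod_cast hn
  have h1 : Real.exp (-(2 * (k / n))) ≤ 1 - (k : ℝ) / n := by
    set y : ℝ := k / n with hy
    have hy0 : 0 ≤ y := by positivity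
    have hy1 : y ≤ 1 / 2 := by rw [hy, div_le_iff₀ hn0]; linarith
    rw [Real.exp_neg, inv_le_iff_one_le_mul₀ (Real.exp_pos _)]
    have := Real.add_one_le_exp (2 * y)
    nlinarith [mul_le_mul_of_nonneg_left this (show 0 ≤ 1 - y by linarith)]
  have h2 : (1 - (k : ℝ) / n) ^ k ≤ (n.descFactorial k : ℝ) / n ^ k := by
    have a1 : ((n + 1 - k : ℕ) : ℝ) ^ k ≤ n.descFactorial k := by
      exact_mod_cast Nat.pow_sub_le_descFactorial n k
    rw [Nat.cast_sub (by omega)] at a1
    rw [le_div_iff₀ (by positivity), ← mul_pow]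
    refine le_trans (pow_le_pow_left₀ ?_ ?_ k) a1
    · rw [sub_mul, div_mul_cancel₀ _ hn0.ne']; linarith
    · rw [sub_mul, div_mul_cancel₀ _ hn0.ne']; push_cast; linarith
  have h3 := (pow_le_pow_left₀ (Real.exp_pos _).le h1 k).trans h2
  refine le_trans ?_ (pow_le_pow_left₀ (by positivity) h3 m)
  rw [← Real.exp_nat_mul, ← Real.exp_nat_mul, Real.exp_le_exp]
  have : (m : ℝ) / n ≤ c := by rwa [div_le_iff₀ hn0]
  calc -(2 * (k : ℝ) ^ 2 * c) ≤ -(2 * k ^ 2 * (m / n)) := by
        rw [neg_le_neg_iff]; exact mul_le_mul_of_nonneg_left this (by positivity)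
    _ = _ := by ring

lemma transfer (k : ℕ) (c : ℝ) (hc : 0 ≤ c) : ∀ᶠ n : ℕ in atTop,
    0 ≤ satProb k n ⌊c * n⌋₊ ∧ satProb k n ⌊c * n⌋₊ ≤ 1 ∧
    satProb k n ⌊c * n⌋₊ ≤ Real.exp (2 * k ^ 2 * c) * pp k n ⌊c * n⌋₊ ∧
    1 - satProb k n ⌊c * n⌋₊ ≤ Real.exp (2 * k ^ 2 * c) * (1 - pp k n ⌊c * n⌋₊) := by
  filter_upwards [eventually_ge_atTop (2 * k), eventually_ge_atTop 1] with n h1 h2
  have : NeZero n := ⟨by omega⟩
  have : Nonempty (Clause k n) := clause_nonempty (by omega)
  set m := ⌊c * n⌋₊ with hm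
  have h3 := pi_lower k n m h1 h2 c (Nat.floor_le (by positivity))
  have h4 := dominate k n m phi (fun S => phi_nonneg S) Set.univ
  have h5 := dominate k n m ((fun _ => 1) - phi) (fun S => sub_nonneg.2 (phi_le_one S)) Set.univ
  rw [map_sub, map_sub, K_pow_const, K_pow_const] at h5
  simp only [Pi.smul_apply, smul_eq_mul, Pi.sub_apply] at h4 h5
  rw [satProb_eq]
  have h6 := pr_nonneg (sol (k := k) (n := n)) m Set.univ
  have h7 := pr_le_one (sol (k := k) (n := n)) m Set.univ
  change _ * pr _ _ _ ≤ pp k n m at h4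
  change _ * (1 - pr _ _ _) ≤ 1 - pp k n m at h5
  have h8 := mul_le_mul_of_nonneg_right h3 h6
  have h9 := mul_le_mul_of_nonneg_right h3 (sub_nonneg.2 h7)
  rw [Real.exp_neg, inv_mul_le_iff₀ (Real.exp_pos _)] at h8 h9
  exact ⟨h6, h7, h8.trans (mul_le_mul_of_nonneg_left h4 (Real.exp_pos _).le),
    h9.trans (mul_le_mul_of_nonneg_left h5 (Real.exp_pos _).le)⟩

theorem threshold_satProb (k : ℕ) (hk : 3 ≤ k) : ∃ α : ℝ, 0 < α ∧
    (∀ c : ℝ, 0 ≤ c → c < α → Tendsto (fun n : ℕ => satProb k n ⌊c * n⌋₊) atTop (𝓝 1)) ∧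
    (∀ c : ℝ, α < c → Tendsto (fun n : ℕ => satProb k n ⌊c * n⌋₊) atTop (𝓝 0)) := by
  obtain ⟨α, h0, h1, h2⟩ := threshold_pp k hk
  refine ⟨α, h0, fun c hc0 hc => ?_, fun c hc => ?_⟩
  · have t1 : Tendsto (fun n : ℕ => 1 - Real.exp (2 * k ^ 2 * c) * (1 - pp k n ⌊c * n⌋₊)) atTop
        (𝓝 1) := by
      have := (((h1 c hc0 hc).const_sub 1).const_mul (Real.exp (2 * k ^ 2 * c))).const_sub 1
      simpa using this
    refine tendsto_of_tendsto_of_tendsto_of_le_of_le' t1 tendsto_const_nhds ?_ ?_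
    · filter_upwards [transfer k c hc0] with n hn
      linarith [hn.2.2.2]
    · filter_upwards [transfer k c hc0] with n hn
      exact hn.2.1
  · have hc0 : 0 ≤ c := by linarith
    have t1 : Tendsto (fun n : ℕ => Real.exp (2 * k ^ 2 * c) * pp k n ⌊c * n⌋₊) atTop (𝓝 0) := by
      simpa using (h2 c hc).const_mul (Real.exp (2 * k ^ 2 * c))
    refine tendsto_of_tendsto_of_tendsto_of_le_of_le' tendsto_const_nhds t1 ?_ ?_
    · filter_upwards [transfer k c hc0] with n hn
      exact hn.1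
    · filter_upwards [transfer k c hc0] with n hn
      exact hn.2.2.1

end Vale.Agent.P170
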