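import Vale.Agent.P170.Op

/-! Variance of the (capped) lifetime. -/

open Finset
open scoped BigOperators

namespace Vale.Agent.P170

variable {Ω : Type*} {Γ : Type*} [Fintype Γ] (C : Γ → Set Ω)

/-- Expected capped lifetime. -/
noncomputable def gg (j : ℕ) (S : Set Ω) : ℝ := ∑ t ∈ range j, pr C t S

/-- Second moment of the capped lifetime. -/
noncomputable def aa (j : ℕ) (S : Set Ω) : ℝ :=
  ∑ t ∈ range j, ∑ t' ∈ range j, pr C (max t t') S

/-- Variance of the capped lifetime. -/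
noncomputable def vv (j : ℕ) (S : Set Ω) : ℝ := aa C j S - gg C j S ^ 2

lemma gg_nonneg (j : ℕ) (S : Set Ω) : 0 ≤ gg C j S :=
  sum_nonneg fun t _ => pr_nonneg C t S

lemma gg_empty (j : ℕ) : gg C j ∅ = 0 := by simp [gg, pr_empty]

lemma gg_mono_left (S : Set Ω) : Monotone fun j => gg C j S := by
  intro i j h
  exact sum_le_sum_of_subset_of_nonneg (range_mono h) fun t _ _ => pr_nonneg C t S

lemma K_gg (j : ℕ) (S : Set Ω) : K C (gg C j) S = ∑ t ∈ range j, pr C (t + 1) S := by
  simp only [K_apply, gg, expect_sum_comm, pr_succ]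

lemma gg_succ (j : ℕ) (S : Set Ω) : gg C (j + 1) S = phi S + K C (gg C j) S := by
  rw [K_gg, gg, sum_range_succ', pr_zero, add_comm]

lemma aa_succ (j : ℕ) (S : Set Ω) :
    aa C (j + 1) S = phi S + 2 * K C (gg C j) S + K C (aa C j) S := by
  have h1 : K C (aa C j) S = ∑ t ∈ range j, ∑ t' ∈ range j, pr C (max (t + 1) (t' + 1)) S := by
    simp only [K_apply, aa, expect_sum_comm, Nat.succ_max_succ, pr_succ]
  rw [h1, K_gg, aa, sum_range_succ']
  simp only [sum_range_succ', sum_add_distrib, Nat.zero_le, max_eq_left, max_eq_right, pr_zero]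
  ring

lemma phi_mul_K_gg (j : ℕ) (S : Set Ω) : phi S * K C (gg C j) S = K C (gg C j) S := by
  rcases S.eq_empty_or_nonempty with rfl | hS
  · simp [K_apply, gg_empty]
  · rw [phi_of_nonempty hS, one_mul]

lemma phi_sq (S : Set Ω) : phi S ^ 2 = phi S := by
  unfold phi; split_ifs <;> norm_num

lemma vv_succ (j : ℕ) (S : Set Ω) :
    vv C (j + 1) S = K C (vv C j) S +
      ((𝔼 γ, gg C j (S ∩ C γ) ^ 2) - (𝔼 γ, gg C j (S ∩ C γ)) ^ 2) := by
  have h1 : K C (vv C j) S = K C (aa C j) S - 𝔼 γ, gg C j (S ∩ C γ) ^ 2 := by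
    simp only [K_apply, vv, expect_sub_distrib]
  have h2 := phi_mul_K_gg C j S
  have h3 := phi_sq S
  rw [h1, vv, aa_succ, gg_succ, ← K_apply]
  nlinarith

lemma var_le_sq [Nonempty Γ] (f : Γ → ℝ) (c : ℝ) :
    (𝔼 γ, f γ ^ 2) - (𝔼 γ, f γ) ^ 2 ≤ 𝔼 γ, (c - f γ) ^ 2 := by
  have h : 𝔼 γ, (c - f γ) ^ 2 = c ^ 2 - 2 * c * (𝔼 γ, f γ) + 𝔼 γ, f γ ^ 2 := by
    have : ∀ γ, (c - f γ) ^ 2 = c ^ 2 - 2 * c * f γ + f γ ^ 2 := fun γ => by ring
    simp only [this, expect_add_distrib, expect_sub_distrib, ← mul_expect, Fintype.expect_const]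
  rw [h]
  nlinarith [sq_nonneg (c - 𝔼 γ, f γ)]

/-- The indicator that `T` kills the nonempty set `S`. -/
noncomputable def psi (T S : Set Ω) : ℝ := phi S - phi (S ∩ T)

lemma psi_nonneg (T S : Set Ω) : 0 ≤ psi T S :=
  sub_nonneg.2 (phi_mono Set.inter_subset_left)

lemma psi_le_phi (T S : Set Ω) : psi T S ≤ phi S := by
  have := phi_nonneg (S ∩ T)
  unfold psi; linarith

lemma psi_sq (T S : Set Ω) : psi T S ^ 2 = psi T S := by
  unfold psi
  rcases (S ∩ T).eq_empty_or_nonempty with h | h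
  · rw [h, phi_empty, sub_zero, phi_sq]
  · rw [phi_of_nonempty h, phi_of_nonempty (h.mono Set.inter_subset_left)]; norm_num

lemma psi_mul_phi (T S : Set Ω) : psi T S * phi S = psi T S := by
  rcases S.eq_empty_or_nonempty with rfl | hS
  · simp [psi, phi_empty]
  · rw [phi_of_nonempty hS, mul_one]

lemma K_pow_psi (T : Set Ω) (t : ℕ) (S : Set Ω) :
    (K C ^ t) (psi T) S = pr C t S - pr C t (S ∩ T) := by
  have : psi T = phi - fun U => phi (U ∩ T) := by funext U; simp [psi]
  rw [this, map_sub, Pi.sub_apply, K_pow_inter]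
  rfl

lemma delay_sq_le [Nonempty Γ] (T : Set Ω) (M : ℕ) (j : ℕ) (hj : j ≤ M) (S : Set Ω) :
    (gg C j S - gg C j (S ∩ T)) ^ 2 ≤
      2 * ∑ t ∈ range j, (K C ^ t) (fun U => psi T U * gg C M U) S := by
  induction j generalizing S with
  | zero => simp [gg]
  | succ j ih =>
    have ih' := ih (by omega)
    set h : Set Ω → ℝ := fun U => gg C j U - gg C j (U ∩ T) with hh
    have e1 : gg C (j + 1) S - gg C (j + 1) (S ∩ T) = psi T S + K C h S := by
      rw [gg_succ, gg_succ]
      simp only [K_apply, hh, expect_sub_distrib, psi, Set.inter_right_comm S T]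
      ring
    have e2 : (K C h S) ^ 2 ≤
        2 * ∑ t ∈ range j, (K C ^ (t + 1)) (fun U => psi T U * gg C M U) S := by
      rw [K_apply]
      refine (sq_expect_le _).trans ?_
      simp only [K_pow_succ_apply]
      rw [← expect_sum_comm, mul_expect]
      exact expect_le_expect fun γ _ => ih' _
    have e3 : K C h S ≤ K C (gg C j) S := by
      refine K_pos C _ _ (fun U => ?_) S
      have := gg_nonneg C j (U ∩ T)
      simp only [hh]; linarith
    have e4 : gg C (j + 1) S ≤ gg C M S := gg_mono_left C S hj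
    rw [gg_succ] at e4
    have e5 := psi_nonneg T S
    have e6 := psi_sq T S
    have e7 := psi_mul_phi T S
    rw [e1, sum_range_succ', pow_zero, Module.End.one_apply]
    have e8 : psi T S * K C h S ≤ psi T S * K C (gg C j) S := mul_le_mul_of_nonneg_left e3 e5
    have e9 : psi T S * (phi S + K C (gg C j) S) ≤ psi T S * gg C M S :=
      mul_le_mul_of_nonneg_left e4 e5
    nlinarith

/-- Killing rate times remaining lifetime. -/
noncomputable def uu (M : ℕ) (S : Set Ω) : ℝ := (phi S - pr C 1 S) * gg C M S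

lemma uu_nonneg [Nonempty Γ] (M : ℕ) (S : Set Ω) : 0 ≤ uu C M S := by
  refine mul_nonneg (sub_nonneg.2 ?_) (gg_nonneg C M S)
  have := pr_succ_le C 0 S
  rwa [pr_zero] at this

lemma vv_succ_le [Nonempty Γ] (M j : ℕ) (hj : j ≤ M) (S : Set Ω) :
    vv C (j + 1) S ≤ K C (vv C j) S + 2 * ∑ t ∈ range j, (K C ^ t) (uu C M) S := by
  rw [vv_succ]
  refine add_le_add le_rfl ((var_le_sq _ (gg C j S)).trans ?_)
  have hu : uu C M = fun U => 𝔼 γ, psi (C γ) U * gg C M U := by
    funext U
    rw [← expect_mul, uu]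
    congr 1
    simp only [psi, expect_sub_distrib, Fintype.expect_const, pr_succ, pr_zero]
  simp only [hu, K_pow_expect]
  rw [← expect_sum_comm, mul_expect]
  exact expect_le_expect fun γ _ => delay_sq_le C (C γ) M j hj S

lemma vv_le [Nonempty Γ] (M j : ℕ) (hj : j ≤ M) (S : Set Ω) :
    vv C j S ≤ 2 * j * ∑ t ∈ range j, (K C ^ t) (uu C M) S := by
  induction j generalizing S with
  | zero => simp [vv, aa, gg]
  | succ j ih =>
    have ih' := ih (by omega)
    have hn : ∀ t U, 0 ≤ (K C ^ t) (uu C M) U := fun t U =>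
      ((K_pos C).pow t).nonneg (fun U => uu_nonneg C M U) U
    refine (vv_succ_le C M j (by omega) S).trans ?_
    have e1 : K C (vv C j) S ≤ 2 * j * ∑ t ∈ range j, (K C ^ (t + 1)) (uu C M) S := by
      simp only [K_pow_succ_apply]
      rw [← expect_sum_comm, mul_expect, K_apply]
      exact expect_le_expect fun γ _ => ih' _
    have e2 : ∑ t ∈ range j, (K C ^ (t + 1)) (uu C M) S ≤
        ∑ t ∈ range (j + 1), (K C ^ t) (uu C M) S := by
      rw [sum_range_succ']
      linarith [hn 0 S]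
    have e3 : ∑ t ∈ range j, (K C ^ t) (uu C M) S ≤
        ∑ t ∈ range (j + 1), (K C ^ t) (uu C M) S := by
      rw [sum_range_succ]
      linarith [hn j S]
    have e4 : (0 : ℝ) ≤ 2 * j := by positivity
    push_cast
    nlinarith [mul_le_mul_of_nonneg_left e2 e4]

lemma vv_ge [Nonempty Γ] (M a b : ℕ) (hab : a ≤ b) (hb : b < M) (S : Set Ω) :
    ((b : ℝ) + 1 - a) ^ 2 * (pr C b S * (1 - pr C a S)) ≤ vv C M S := by
  have hterm : ∀ t t', 0 ≤ pr C (max t t') S - pr C t S * pr C t' S := by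
    intro t t'
    have h1 := pr_nonneg C t S
    have h2 := pr_nonneg C t' S
    have h3 := pr_le_one C t S
    have h4 := pr_le_one C t' S
    rcases le_total t t' with h | h
    · rw [max_eq_right h]; nlinarith
    · rw [max_eq_left h]; nlinarith
  have hterm' : ∀ t ∈ Ico a (b + 1), ∀ t' ∈ Ico a (b + 1),
      pr C b S * (1 - pr C a S) ≤ pr C (max t t') S - pr C t S * pr C t' S := by
    intro t ht t' ht'
    rw [mem_Ico] at ht ht'
    have h1 := pr_nonneg C t S
    have h2 := pr_nonneg C t' S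
    have h3 := pr_le_one C t S
    have h4 := pr_le_one C t' S
    have h5 : pr C b S ≤ pr C t S := pr_anti C S (by omega)
    have h6 : pr C b S ≤ pr C t' S := pr_anti C S (by omega)
    have h7 : pr C t S ≤ pr C a S := pr_anti C S ht.1
    have h8 : pr C t' S ≤ pr C a S := pr_anti C S ht'.1
    have h9 := pr_nonneg C b S
    have h10 := pr_le_one C a S
    rcases le_total t t' with h | h
    · rw [max_eq_right h]
      calc pr C b S * (1 - pr C a S) ≤ pr C t' S * (1 - pr C t S) :=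
            mul_le_mul h6 (by linarith) (by linarith) h2
        _ = _ := by ring
    · rw [max_eq_left h]
      calc pr C b S * (1 - pr C a S) ≤ pr C t S * (1 - pr C t' S) :=
            mul_le_mul h5 (by linarith) (by linarith) h1
        _ = _ := by ring
  have hv : vv C M S = ∑ t ∈ range M, ∑ t' ∈ range M,
      (pr C (max t t') S - pr C t S * pr C t' S) := by
    simp only [vv, aa, gg, sq, sum_mul_sum, sum_sub_distrib]
  have hsub : Ico a (b + 1) ⊆ range M := by
    intro t ht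
    rw [mem_Ico] at ht
    rw [mem_range]; omega
  rw [hv]
  calc ((b : ℝ) + 1 - a) ^ 2 * (pr C b S * (1 - pr C a S))
      = ∑ t ∈ Ico a (b + 1), ∑ t' ∈ Ico a (b + 1), pr C b S * (1 - pr C a S) := by
        simp only [sum_const, Nat.card_Ico, nsmul_eq_mul]
        rw [Nat.cast_sub (by omega)]
        push_cast
        ring
    _ ≤ ∑ t ∈ Ico a (b + 1), ∑ t' ∈ Ico a (b + 1),
          (pr C (max t t') S - pr C t S * pr C t' S) :=
        sum_le_sum fun t ht => sum_le_sum fun t' ht' => hterm' t ht t' ht'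
    _ ≤ ∑ t ∈ Ico a (b + 1), ∑ t' ∈ range M, (pr C (max t t') S - pr C t S * pr C t' S) :=
        sum_le_sum fun t _ => sum_le_sum_of_subset_of_nonneg hsub fun t' _ _ => hterm t t'
    _ ≤ _ := sum_le_sum_of_subset_of_nonneg hsub fun t _ _ => sum_nonneg fun t' _ => hterm t t'

lemma uu_le_one [Nonempty Γ] (M : ℕ) (S : Set Ω) : uu C M S ≤ 1 := by
  have h1 : gg C M S ≤ ∑ t ∈ range M, pr C 1 S ^ t := sum_le_sum fun t _ => pr_le_pow C t S
  have h2 : (1 - pr C 1 S) * ∑ t ∈ range M, pr C 1 S ^ t = 1 - pr C 1 S ^ M := mul_neg_geom_sum _ _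
  have h3 : 0 ≤ pr C 1 S ^ M := pow_nonneg (pr_nonneg C 1 S) M
  have h4 := pr_le_one C 1 S
  have h5 := phi_le_one S
  have h6 := gg_nonneg C M S
  calc uu C M S ≤ (1 - pr C 1 S) * gg C M S := mul_le_mul_of_nonneg_right (by linarith) h6
    _ ≤ (1 - pr C 1 S) * ∑ t ∈ range M, pr C 1 S ^ t := mul_le_mul_of_nonneg_left h1 (by linarith)
    _ ≤ 1 := by linarith

lemma uu_le_mul [Nonempty Γ] (M : ℕ) (S : Set Ω) : uu C M S ≤ (phi S - pr C 1 S) * M := by
  refine mul_le_mul_of_nonneg_left ?_ (sub_nonneg.2 ?_)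
  · calc gg C M S ≤ ∑ t ∈ range M, (1 : ℝ) := sum_le_sum fun t _ => pr_le_one C t S
      _ = M := by simp
  · have := pr_succ_le C 0 S
    rwa [pr_zero] at this

end Vale.Agent.P170
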